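import Vale.Agent.P159.T1.S.H376.En
import Mathlib.Topology.MetricSpace.HausdorffDistance

/-! # P159, T1, stage 2, row S.EN, part (P3): oscillations of the gradient of `v` -/

open Finset
open Vale.Agent.P159.T1.D
open Vale.Agent.P159.T1.H775

namespace Vale.Agent.P159.T1.S.H376

/-! ### from unit shifts to all shifts -/

/-- a unit shift -/
def ud (d : Bool) : Z2 := if d then (0, 1) else (1, 0)

theorem stp_eq (d : Bool) (f : Z2) : stp d f = f + ud d := by
  cases d <;> simp [stp, ud, Prod.ext_iff]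

theorem lf_sh (u : Z2) (e : Bnd) : lf (sh u e) = lf e + u := by
  obtain ⟨⟨i, j⟩, d⟩ := e
  cases d <;> simp [lf, sh, Prod.ext_iff] <;> ring

theorem rt_sh (u : Z2) (e : Bnd) : rt (sh u e) = rt e + u := by
  obtain ⟨⟨i, j⟩, d⟩ := e
  cases d <;> simp [rt, sh, Prod.ext_iff] <;> ring

theorem dr_step (v : Z2 → ℝ) (d : Bool) (e : Bnd) :
    dr (fun f => v (stp d f) - v f) e = dr v (sh (ud d) e) - dr v e := by
  simp only [dr, lf_sh, rt_sh, stp_eq]; ring

theorem sh_add (u v : Z2) (e : Bnd) : sh (u + v) e = sh v (sh u e) := by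
  simp [sh, add_assoc]

theorem sh_inj (u : Z2) : Function.Injective (sh u) := by
  intro e e' h
  simp only [sh, Prod.mk.injEq, add_left_inj] at h
  exact Prod.ext h.1 h.2

/-- all sums of squares of the differences at distance `u` are at most `A` -/
def Sh (B : Bnd → ℝ) (A : ℝ) (u : Z2) : Prop :=
  ∀ S : Finset Bnd, ∑ e ∈ S, (B (sh u e) - B e) ^ 2 ≤ A

theorem Sh.nonneg {B : Bnd → ℝ} {A : ℝ} {u : Z2} (h : Sh B A u) : 0 ≤ A := by
  simpa using h ∅

theorem Sh.mono {B : Bnd → ℝ} {A A' : ℝ} {u : Z2} (h : Sh B A u) (hA : A ≤ A') : Sh B A' u :=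
  fun S => (h S).trans hA

theorem sh_zero (B : Bnd → ℝ) : Sh B 0 0 := by
  intro S
  refine le_of_eq (Finset.sum_eq_zero fun e _ => ?_)
  simp [sh]

theorem Sh.add {B : Bnd → ℝ} {A A' : ℝ} {u v : Z2} (hu : Sh B A u) (hv : Sh B A' v) :
    Sh B (2 * A + 2 * A') (u + v) := by
  classical
  intro S
  have h1 := hu S
  have h2 := hv (S.image (sh u))
  rw [Finset.sum_image (fun a _ b _ h => sh_inj u h)] at h2
  calc ∑ e ∈ S, (B (sh (u + v) e) - B e) ^ 2
      ≤ ∑ e ∈ S, (2 * (B (sh u e) - B e) ^ 2 + 2 * (B (sh v (sh u e)) - B (sh u e)) ^ 2) := by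
        refine Finset.sum_le_sum fun e _ => ?_
        rw [sh_add]
        nlinarith [sq_nonneg ((B (sh u e) - B e) - (B (sh v (sh u e)) - B (sh u e)))]
    _ ≤ 2 * A + 2 * A' := by
        rw [Finset.sum_add_distrib, ← Finset.mul_sum, ← Finset.mul_sum]
        linarith

theorem Sh.neg {B : Bnd → ℝ} {A : ℝ} {u : Z2} (hu : Sh B A u) : Sh B A (-u) := by
  classical
  intro S
  have h := hu (S.image (sh (-u)))
  rw [Finset.sum_image (fun a _ b _ h => sh_inj _ h)] at h
  refine le_trans (le_of_eq (Finset.sum_congr rfl fun e _ => ?_)) h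
  rw [← sh_add, neg_add_cancel, show sh 0 e = e by simp [sh]]
  ring

theorem Sh.nsmul {B : Bnd → ℝ} {A : ℝ} {u : Z2} (hu : Sh B A u) (n : ℕ) :
    Sh B (4 ^ n * A) (n • u) := by
  induction n with
  | zero =>
    rw [zero_smul]
    exact (sh_zero B).mono (by have := hu.nonneg; positivity)
  | succ n ih =>
    rw [succ_nsmul]
    refine (ih.add hu).mono ?_
    have := hu.nonneg
    have h4 : (1 : ℝ) ≤ 4 ^ n := one_le_pow₀ (by norm_num)
    rw [pow_succ]
    nlinarith

theorem Sh.zsmul {B : Bnd → ℝ} {A : ℝ} {u : Z2} (hu : Sh B A u) {l : ℕ} {a : ℤ}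
    (ha : |a| ≤ l) : Sh B (4 ^ l * A) (a • u) := by
  have hA := hu.nonneg
  have key : ∀ n : ℕ, n ≤ l → Sh B (4 ^ l * A) (n • u) := fun n hn =>
    (hu.nsmul n).mono (mul_le_mul_of_nonneg_right
      (pow_le_pow_right₀ (by norm_num) hn) hA)
  obtain ⟨h1, h2⟩ := abs_le.1 ha
  rcases le_total 0 a with h | h
  · obtain ⟨n, rfl⟩ := Int.eq_ofNat_of_zero_le h
    have := key n (by omega)
    simpa using this
  · obtain ⟨n, hn⟩ := Int.eq_ofNat_of_zero_le (by omega : 0 ≤ -a)
    have h3 := (key n (by omega)).neg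
    have e : a • u = -(n • u) := by
      rw [show a = -(n : ℤ) by omega, neg_smul]; simp
    rw [e]; exact h3

theorem osc_le_of_unit {B : Bnd → ℝ} {A : ℝ} (h : ∀ d, Sh B A (ud d)) (l : ℕ)
    (S : Finset Bnd) : osc l S B ≤ (2 * l + 1) ^ 2 * (4 ^ (l + 1) * A) := by
  have hA := (h true).nonneg
  rw [osc, Finset.sum_comm]
  have h1 : ∀ u ∈ Finset.Icc (-(l : ℤ), -(l : ℤ)) ((l : ℤ), (l : ℤ)),
      ∑ e ∈ S, (B (sh u e) - B e) ^ 2 ≤ 4 ^ (l + 1) * A := by
    intro u hu
    rw [Finset.mem_Icc] at hu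
    obtain ⟨⟨a1, a2⟩, a3, a4⟩ := hu
    simp only at a1 a2 a3 a4
    have b1 : Sh B (4 ^ l * A) (u.1 • ud false) := (h false).zsmul (abs_le.2 ⟨a1, a3⟩)
    have b2 : Sh B (4 ^ l * A) (u.2 • ud true) := (h true).zsmul (abs_le.2 ⟨a2, a4⟩)
    have b3 := b1.add b2
    have e : u.1 • ud false + u.2 • ud true = u := by simp [ud]
    rw [e] at b3
    refine (b3 S).trans (le_of_eq ?_)
    rw [pow_succ]; ring
  refine (Finset.sum_le_card_nsmul _ _ _ h1).trans (le_of_eq ?_)
  rw [nsmul_eq_mul]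
  congr 1
  have : Finset.Icc (-(l : ℤ), -(l : ℤ)) ((l : ℤ), (l : ℤ)) =
      Finset.Icc (-(l : ℤ)) l ×ˢ Finset.Icc (-(l : ℤ)) l := rfl
  rw [this, Finset.card_product, Int.card_Icc]
  have e : ((l : ℤ) + 1 - -(l : ℤ)).toNat = 2 * l + 1 := by omega
  rw [e]; push_cast; ring

/-! ### the distance to the complement of `R` and the cut-off -/

/-- distance to the complement -/
noncomputable def dst (R : Finset Z2) (f : Z2) : ℝ := Metric.infDist f ((R : Set Z2)ᶜ)

theorem compl_nonempty (R : Finset Z2) : ((R : Set Z2)ᶜ).Nonempty := by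
  obtain ⟨f, hf⟩ := Infinite.exists_notMem_finset R
  exact ⟨f, by simpa using hf⟩

theorem dst_zero {R : Finset Z2} {f : Z2} (hf : f ∉ R) : dst R f = 0 :=
  Metric.infDist_zero_of_mem (by simpa using hf)

theorem dst_lip (R : Finset Z2) (f g : Z2) : |dst R f - dst R g| ≤ dist f g := by
  rw [abs_le]
  have h1 : dst R f ≤ dst R g + dist f g := Metric.infDist_le_infDist_add_dist
  have h2 : dst R g ≤ dst R f + dist g f := Metric.infDist_le_infDist_add_dist
  rw [dist_comm] at h2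
  constructor <;> linarith

theorem dist_stp (d : Bool) (f : Z2) : dist (stp d f) f = 1 := by
  cases d <;> simp [stp, Prod.dist_eq, Int.dist_eq]

theorem dist_bond (e : Bnd) : dist (lf e) (rt e) = 1 := by
  obtain ⟨⟨i, j⟩, d⟩ := e
  cases d <;> simp [lf, rt, Prod.dist_eq, Int.dist_eq]

/-- a point outside `R` in the box -/
theorem exists_of_dst_lt {R : Finset Z2} {f : Z2} {m : ℕ} (h : dst R f < m + 1) :
    ∃ g, g ∉ R ∧ InBox f m g := by
  rw [dst, Metric.infDist_lt_iff (compl_nonempty R)] at h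
  obtain ⟨g, hg, hd⟩ := h
  refine ⟨g, by simpa using hg, ?_⟩
  rw [Prod.dist_eq, max_lt_iff, Int.dist_eq, Int.dist_eq] at hd
  obtain ⟨h1, h2⟩ := hd
  have e1 : |f.1 - g.1| < m + 1 := by exact_mod_cast h1
  have e2 : |f.2 - g.2| < m + 1 := by exact_mod_cast h2
  constructor
  · rw [abs_sub_comm]; omega
  · rw [abs_sub_comm]; omega

theorem mem_of_le_dst {R : Finset Z2} {f : Z2} {m : ℕ} (h : (m : ℝ) + 1 ≤ dst R f) {g : Z2}
    (hg : InBox f m g) : g ∈ R := by
  by_contra hc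
  have h1 : dst R f ≤ dist f g := Metric.infDist_le_dist_of_mem (by simpa using hc)
  have h2 : dist f g ≤ m := by
    rw [Prod.dist_eq, Int.dist_eq, Int.dist_eq]
    obtain ⟨h3, h4⟩ := hg
    rw [abs_sub_comm] at h3 h4
    refine max_le ?_ ?_
    · exact_mod_cast h3
    · exact_mod_cast h4
  linarith

/-- the cut-off -/
noncomputable def chi (R : Finset Z2) (m : ℕ) (f : Z2) : ℝ := max 0 (min 1 ((dst R f - 1) / m))

theorem chi_zero {R : Finset Z2} (m : ℕ) {f : Z2} (h : dst R f ≤ 1) : chi R m f = 0 := by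
  rw [chi, max_eq_left]
  refine (min_le_right _ _).trans ?_
  exact div_nonpos_of_nonpos_of_nonneg (by linarith) (by positivity)

theorem chi_one {R : Finset Z2} {m : ℕ} (hm : 1 ≤ m) {f : Z2} (h : (m : ℝ) + 1 ≤ dst R f) :
    chi R m f = 1 := by
  have hm0 : (0 : ℝ) < m := by exact_mod_cast hm
  rw [chi, min_eq_left ((le_div_iff₀ hm0).2 (by linarith)), max_eq_right zero_le_one]

theorem chi_lip (R : Finset Z2) {m : ℕ} (hm : 1 ≤ m) (f g : Z2) :
    |chi R m f - chi R m g| ≤ dist f g / m := by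
  have hm0 : (0 : ℝ) < m := by exact_mod_cast hm
  have key : ∀ a b : ℝ, |max 0 (min 1 a) - max 0 (min 1 b)| ≤ |a - b| := by
    intro a b
    calc |max 0 (min 1 a) - max 0 (min 1 b)| ≤ |min 1 a - min 1 b| := by
          have := abs_max_sub_max_le_abs (min 1 a) (min 1 b) 0
          rwa [max_comm 0, max_comm 0]
      _ ≤ |a - b| := by
          have := abs_min_sub_min_le_max 1 a 1 b
          simpa using this
  refine (key _ _).trans ?_
  rw [← sub_div, abs_div, abs_of_pos hm0]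
  refine div_le_div_of_nonneg_right ?_ hm0.le
  have := dst_lip R f g
  have e : dst R f - 1 - (dst R g - 1) = dst R f - dst R g := by ring
  rwa [e]

theorem dst_stp (R : Finset Z2) (d : Bool) (f : Z2) : |dst R (stp d f) - dst R f| ≤ 1 := by
  have := dst_lip R (stp d f) f
  rwa [dist_stp] at this

theorem dst_bond (R : Finset Z2) (e : Bnd) : |dst R (lf e) - dst R (rt e)| ≤ 1 := by
  have := dst_lip R (lf e) (rt e)
  rwa [dist_bond] at this

/-! ### sums over bonds of functions of the gradient -/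

/-- the bond between `f` and `stp d f` -/
def nb (d : Bool) (f : Z2) : Bnd := if d then ((f.1, f.2 + 1), false) else ((f.1 + 1, f.2), true)

theorem nb_inj (d : Bool) : Function.Injective (nb d) := by
  rintro ⟨i, j⟩ ⟨i', j'⟩ h
  cases d <;> simp [nb, Prod.ext_iff] at h ⊢ <;> exact h

theorem dr_nb (v : Z2 → ℝ) (d : Bool) (f : Z2) : dr v (nb d f) ^ 2 = (v (stp d f) - v f) ^ 2 := by
  cases d <;> simp [nb, dr, lf, rt, stp] <;> ring

theorem sum_face_le {v : Z2 → ℝ} {E : ℝ} (hE : ∀ S : Finset Bnd, ∑ e ∈ S, dr v e ^ 2 ≤ E)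
    (d : Bool) {π : Bnd → Z2} (hπ : ∀ e e', e.2 = e'.2 → π e = π e' → e = e') (S : Finset Bnd) :
    ∑ e ∈ S, (v (stp d (π e)) - v (π e)) ^ 2 ≤ 2 * E := by
  classical
  have key : ∀ o : Bool, ∑ e ∈ S.filter (fun e => e.2 = o),
      (v (stp d (π e)) - v (π e)) ^ 2 ≤ E := by
    intro o
    have h1 := hE ((S.filter (fun e => e.2 = o)).image fun e => nb d (π e))
    rw [Finset.sum_image] at h1
    · refine le_trans (le_of_eq (Finset.sum_congr rfl fun e _ => ?_)) h1
      rw [dr_nb]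
    · intro a ha b hb hab
      simp only [Finset.coe_filter, Set.mem_setOf_eq] at ha hb
      exact hπ a b (ha.2.trans hb.2.symm) (nb_inj d hab)
  have h2 : S = S.filter (fun e => e.2 = true) ∪ S.filter (fun e => e.2 = false) := by
    ext e
    simp only [Finset.mem_union, Finset.mem_filter]
    cases e.2 <;> simp
  have h3 : Disjoint (S.filter (fun e => e.2 = true)) (S.filter (fun e => e.2 = false)) := by
    rw [Finset.disjoint_left]
    intro e he he'
    simp only [Finset.mem_filter] at he he'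
    rw [he.2] at he'
    exact Bool.noConfusion he'.2
  rw [h2, Finset.sum_union h3]
  have := key true
  have := key false
  linarith

theorem lf_inj' (e e' : Bnd) (h : e.2 = e'.2) (h1 : lf e = lf e') : e = e' := by
  obtain ⟨⟨i, j⟩, d⟩ := e
  obtain ⟨⟨i', j'⟩, d'⟩ := e'
  simp only at h
  subst h
  cases d <;> simp [lf, Prod.ext_iff] at h1 ⊢ <;> exact h1

theorem rt_inj' (e e' : Bnd) (h : e.2 = e'.2) (h1 : rt e = rt e') : e = e' := by
  obtain ⟨⟨i, j⟩, d⟩ := e
  obtain ⟨⟨i', j'⟩, d'⟩ := e'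
  simp only at h
  subst h
  cases d <;> simp [rt, Prod.ext_iff] at h1 ⊢ <;> exact h1

/-- Caccioppoli for the differences of `v`, far from the complement of `R` -/
theorem far_le {R : Finset Z2} {v : Z2 → ℝ} (hv : ∀ f ∈ R, lap v f = 0) {E : ℝ}
    (hE : ∀ S : Finset Bnd, ∑ e ∈ S, dr v e ^ 2 ≤ E) {m : ℕ} (hm : 1 ≤ m) (d : Bool)
    (S : Finset Bnd) (hS : ∀ e ∈ S, (m : ℝ) + 1 ≤ dst R (lf e) ∨ (m : ℝ) + 1 ≤ dst R (rt e)) :
    ∑ e ∈ S, (dr v (sh (ud d) e) - dr v e) ^ 2 ≤ 32 * E / m ^ 2 := by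
  classical
  have hm0 : (0 : ℝ) < m := by exact_mod_cast hm
  set w : Z2 → ℝ := fun f => v (stp d f) - v f with hw
  set U : Finset Z2 := R.filter fun f => stp d f ∈ R with hU
  have hharm : ∀ f ∈ U, lap w f = 0 := by
    intro f hf
    rw [hU, Finset.mem_filter] at hf
    have h1 := hv f hf.1
    have h2 := hv (stp d f) hf.2
    cases d
    · simp only [hw, stp, Bool.false_eq_true, if_false, lap] at h1 h2 ⊢
      rw [show f.1 - 1 + 1 = f.1 + 1 - 1 by ring]
      linarith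
    · simp only [hw, stp, if_true, lap] at h1 h2 ⊢
      rw [show f.2 - 1 + 1 = f.2 + 1 - 1 by ring]
      linarith
  have hz : ∀ f, f ∉ U → chi R m f ^ 2 * (w f - (fun _ => (0 : ℝ)) f) = 0 := by
    intro f hf
    have : chi R m f = 0 := by
      refine chi_zero m ?_
      rw [hU, Finset.mem_filter, not_and_or] at hf
      rcases hf with hf | hf
      · rw [dst_zero hf]; norm_num
      · have h1 := dst_stp R d f
        rw [dst_zero hf, zero_sub, abs_neg] at h1
        exact (le_abs_self _).trans h1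
    rw [this]; ring
  have hc := cacc (S := S ∪ bd U) Finset.subset_union_right hharm hz
  have h0 : ∑ e ∈ S ∪ bd U, (chi R m (lf e) ^ 2 + chi R m (rt e) ^ 2) / 2 *
      dr (fun _ => (0 : ℝ)) e ^ 2 = 0 := Finset.sum_eq_zero fun e _ => by simp [dr]
  rw [h0, mul_zero, zero_add] at hc
  have h1 : ∑ e ∈ S ∪ bd U, (w (lf e) - (fun _ => (0 : ℝ)) (lf e) +
      (w (rt e) - (fun _ => (0 : ℝ)) (rt e))) ^ 2 * dr (chi R m) e ^ 2 ≤ 8 * E / m ^ 2 := by
    have hchi : ∀ e : Bnd, dr (chi R m) e ^ 2 ≤ 1 / (m : ℝ) ^ 2 := by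
      intro e
      have := chi_lip R hm (lf e) (rt e)
      rw [dist_bond] at this
      calc dr (chi R m) e ^ 2 = |chi R m (lf e) - chi R m (rt e)| ^ 2 := by rw [sq_abs]; rfl
        _ ≤ (1 / (m : ℝ)) ^ 2 := pow_le_pow_left₀ (abs_nonneg _) this 2
        _ = 1 / (m : ℝ) ^ 2 := by rw [div_pow, one_pow]
    calc _ ≤ ∑ e ∈ S ∪ bd U, (2 * w (lf e) ^ 2 + 2 * w (rt e) ^ 2) * (1 / (m : ℝ) ^ 2) := by
          refine Finset.sum_le_sum fun e _ => ?_
          refine mul_le_mul ?_ (hchi e) (sq_nonneg _) (by positivity)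
          simp only [sub_zero]
          nlinarith [sq_nonneg (w (lf e) - w (rt e))]
      _ = (2 * ∑ e ∈ S ∪ bd U, w (lf e) ^ 2 + 2 * ∑ e ∈ S ∪ bd U, w (rt e) ^ 2) *
            (1 / (m : ℝ) ^ 2) := by
          rw [← Finset.sum_mul, Finset.sum_add_distrib, Finset.mul_sum, Finset.mul_sum]
      _ ≤ (2 * (2 * E) + 2 * (2 * E)) * (1 / (m : ℝ) ^ 2) := by
          refine mul_le_mul_of_nonneg_right ?_ (by positivity)
          have a1 := sum_face_le hE d lf_inj' (S ∪ bd U)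
          have a2 := sum_face_le hE d rt_inj' (S ∪ bd U)
          simp only [hw]
          linarith
      _ = 8 * E / m ^ 2 := by ring
  have h2 : ∑ e ∈ S, (dr v (sh (ud d) e) - dr v e) ^ 2 ≤
      2 * ∑ e ∈ S ∪ bd U, (chi R m (lf e) ^ 2 + chi R m (rt e) ^ 2) / 2 * dr w e ^ 2 := by
    rw [Finset.mul_sum]
    refine le_trans ?_ (Finset.sum_le_sum_of_subset_of_nonneg Finset.subset_union_left
      (fun e _ _ => by positivity))
    refine Finset.sum_le_sum fun e he => ?_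
    rw [← dr_step]
    have h3 : 1 ≤ chi R m (lf e) ^ 2 + chi R m (rt e) ^ 2 := by
      rcases hS e he with h | h
      · rw [chi_one hm h]; nlinarith [sq_nonneg (chi R m (rt e))]
      · rw [chi_one hm h]; nlinarith [sq_nonneg (chi R m (lf e))]
    have h4 : 0 ≤ dr w e ^ 2 := sq_nonneg _
    change dr w e ^ 2 ≤ _
    nlinarith
  calc _ ≤ _ := h2
    _ ≤ 2 * (2 * (8 * E / m ^ 2)) := by linarith
    _ = 32 * E / m ^ 2 := by ring

/-- energy of `u` on a set of bonds where `|u| ≤ ω`, up to a finite set of faces -/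
theorem strip_le {R : Finset Z2} {v t : Z2 → ℝ} (hv : ∀ f ∈ R, lap v f = 0)
    (ht : ∀ f, f ∉ R → v f = t f) {M ω Λ : ℝ} (hM : ∀ f, |t f| ≤ M) (hω : 0 ≤ ω)
    (hΛ : ∑ f ∈ R, |lap t f| ≤ Λ) {X : Finset Z2} (S : Finset Bnd)
    (hS : ∀ e ∈ S, (lf e ∉ X → |t (lf e) - v (lf e)| ≤ ω) ∧
      (rt e ∉ X → |t (rt e) - v (rt e)| ≤ ω)) :
    ∑ e ∈ S, dr (fun f => t f - v f) e ^ 2 ≤ ω * Λ + 64 * X.card * M ^ 2 := by
  classical
  have hvM : ∀ f, |v f| ≤ M := abs_le_of_harm hv (fun f hf => by rw [ht f hf]; exact hM f)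
  have hc := clamp_energy hv ht hω S
  have hX : ∀ e : Bnd, e ∉ bd X → lf e ∉ X ∧ rt e ∉ X := by
    intro e he
    constructor
    · intro h; exact he (Finset.mem_biUnion.2 ⟨_, h, (mem_sides_iff _ _).2 (Or.inl rfl)⟩)
    · intro h; exact he (Finset.mem_biUnion.2 ⟨_, h, (mem_sides_iff _ _).2 (Or.inr rfl)⟩)
  have hcard : ((bd X).card : ℝ) ≤ 4 * X.card := by
    have h1 : (bd X).card ≤ X.card * 4 := by
      rw [bd]
      refine Finset.card_biUnion_le_card_mul _ _ _ fun f _ => ?_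
      rw [sides]
      exact (Finset.card_le_four)
    have : ((bd X).card : ℝ) ≤ (X.card : ℝ) * 4 := by exact_mod_cast h1
    linarith
  have h1 : ∀ e ∈ S, dr (fun f => t f - v f) e ^ 2 ≤
      dr (fun f => clamp ω (t f - v f)) e ^ 2 + if e ∈ bd X then 16 * M ^ 2 else 0 := by
    intro e he
    split_ifs with hb
    · have : |dr (fun f => t f - v f) e| ≤ 4 * M := by
        rw [dr]
        have a1 := hM (lf e)
        have a2 := hM (rt e)
        have a3 := hvM (lf e)
        have a4 := hvM (rt e)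
        rw [abs_le] at *
        constructor <;> linarith
      have h3 : dr (fun f => t f - v f) e ^ 2 ≤ (4 * M) ^ 2 := by
        rw [← sq_abs]; exact pow_le_pow_left₀ (abs_nonneg _) this 2
      have h4 := sq_nonneg (dr (fun f => clamp ω (t f - v f)) e)
      linarith
    · obtain ⟨a1, a2⟩ := hX e hb
      obtain ⟨a3, a4⟩ := hS e he
      rw [add_zero]
      simp only [dr]
      rw [clamp_of_abs (a3 a1), clamp_of_abs (a4 a2)]
  calc ∑ e ∈ S, dr (fun f => t f - v f) e ^ 2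
      ≤ ∑ e ∈ S, (dr (fun f => clamp ω (t f - v f)) e ^ 2 +
          if e ∈ bd X then 16 * M ^ 2 else 0) := Finset.sum_le_sum h1
    _ ≤ ω * Λ + 4 * X.card * (16 * M ^ 2) := by
        rw [Finset.sum_add_distrib]
        refine add_le_add (hc.trans (mul_le_mul_of_nonneg_left hΛ hω)) ?_
        rw [← Finset.sum_filter, Finset.sum_const, nsmul_eq_mul]
        refine mul_le_mul_of_nonneg_right ?_ (by positivity)
        refine le_trans ?_ hcard
        exact_mod_cast Finset.card_le_card fun e he => (Finset.mem_filter.1 he).2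
    _ = ω * Λ + 64 * X.card * M ^ 2 := by ring

/-- **(P3)**, unit shifts -/
theorem unit_le {R : Finset Z2} {v t : Z2 → ℝ} (hv : ∀ f ∈ R, lap v f = 0)
    (ht : ∀ f, f ∉ R → v f = t f) {E T M ω Λ : ℝ}
    (hE : ∀ S : Finset Bnd, ∑ e ∈ S, dr t e ^ 2 ≤ E) (hT : ∀ d, Sh (dr t) T (ud d))
    (hM : ∀ f, |t f| ≤ M) (hω : 0 ≤ ω) (hΛ : ∑ f ∈ R, |lap t f| ≤ Λ) {m : ℕ} (hm : 1 ≤ m)
    {X : Finset Z2} (hX : ∀ f, f ∉ X → ∀ g, g ∉ R → InBox f (m + 1) g → |t f - v f| ≤ ω)
    (d : Bool) :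
    Sh (dr v) (32 * E / m ^ 2 + 2 * T + 8 * (ω * Λ + 64 * X.card * M ^ 2)) (ud d) := by
  classical
  intro S
  have hm0 : (0 : ℝ) < m := by exact_mod_cast hm
  set P : Bnd → Prop := fun e => (m : ℝ) + 1 ≤ dst R (lf e) ∨ (m : ℝ) + 1 ≤ dst R (rt e) with hP
  have hfar := far_le hv (energy_le hv ht hE) hm d (S.filter P)
    (fun e he => (Finset.mem_filter.1 he).2)
  -- faces near the complement
  have hnear : ∀ f, dst R f < m + 2 → f ∉ X → |t f - v f| ≤ ω := by
    intro f hf hfX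
    obtain ⟨g, hg, hb⟩ := exists_of_dst_lt (R := R) (f := f) (m := m + 1) (by push_cast; linarith)
    exact hX f hfX g hg hb
  have hs0 : ∀ e ∈ S.filter fun e => ¬ P e, dst R (lf e) < m + 1 ∧ dst R (rt e) < m + 1 := by
    intro e he
    have := (Finset.mem_filter.1 he).2
    simp only [hP, not_or, not_le] at this
    exact this
  have h1 := strip_le hv ht hM hω hΛ (X := X) (S.filter fun e => ¬ P e) (fun e he =>
    ⟨hnear _ (by linarith [(hs0 e he).1]), hnear _ (by linarith [(hs0 e he).2])⟩)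
  have h2 := strip_le hv ht hM hω hΛ (X := X) ((S.filter fun e => ¬ P e).image (sh (ud d)))
    (fun e he => by
      obtain ⟨e', he', rfl⟩ := Finset.mem_image.1 he
      obtain ⟨a1, a2⟩ := hs0 e' he'
      rw [lf_sh, rt_sh, ← stp_eq, ← stp_eq]
      have b1 := (abs_le.1 (dst_stp R d (lf e'))).2
      have b2 := (abs_le.1 (dst_stp R d (rt e'))).2
      exact ⟨hnear _ (by linarith), hnear _ (by linarith)⟩)
  rw [Finset.sum_image (fun a _ b _ h => sh_inj _ h)] at h2
  have h3 := hT d (S.filter fun e => ¬ P e)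
  have hdr : ∀ e, dr v e = dr t e - dr (fun f => t f - v f) e := by
    intro e; simp only [dr]; ring
  have hstrip : ∑ e ∈ S.filter (fun e => ¬ P e), (dr v (sh (ud d) e) - dr v e) ^ 2 ≤
      2 * T + 8 * (ω * Λ + 64 * X.card * M ^ 2) := by
    calc _ ≤ ∑ e ∈ S.filter (fun e => ¬ P e), (2 * (dr t (sh (ud d) e) - dr t e) ^ 2 +
          4 * dr (fun f => t f - v f) (sh (ud d) e) ^ 2 +
          4 * dr (fun f => t f - v f) e ^ 2) := by
          refine Finset.sum_le_sum fun e _ => ?_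
          rw [hdr, hdr e]
          set x := dr t (sh (ud d) e) - dr t e with hx
          set a := dr (fun f => t f - v f) (sh (ud d) e)
          set b := dr (fun f => t f - v f) e
          have : dr t (sh (ud d) e) - a - (dr t e - b) = x - (a - b) := by rw [hx]; ring
          rw [this]
          nlinarith [sq_nonneg (x + (a - b)), sq_nonneg (a + b)]
      _ ≤ _ := by
          rw [Finset.sum_add_distrib, Finset.sum_add_distrib, ← Finset.mul_sum, ← Finset.mul_sum,
            ← Finset.mul_sum]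
          linarith
  rw [← Finset.sum_filter_add_sum_filter_not S P]
  linarith

/-- **(P3)**: the oscillation of `dr v` -/
theorem osc_le {R : Finset Z2} {v t : Z2 → ℝ} (hv : ∀ f ∈ R, lap v f = 0)
    (ht : ∀ f, f ∉ R → v f = t f) {E T M ω Λ : ℝ}
    (hE : ∀ S : Finset Bnd, ∑ e ∈ S, dr t e ^ 2 ≤ E) (hT : ∀ d, Sh (dr t) T (ud d))
    (hM : ∀ f, |t f| ≤ M) (hω : 0 ≤ ω) (hΛ : ∑ f ∈ R, |lap t f| ≤ Λ) {m : ℕ} (hm : 1 ≤ m)
    {X : Finset Z2} (hX : ∀ f, f ∉ X → ∀ g, g ∉ R → InBox f (m + 1) g → |t f - v f| ≤ ω)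
    (l : ℕ) (S : Finset Bnd) :
    osc l S (dr v) ≤ (2 * l + 1) ^ 2 * (4 ^ (l + 1) *
      (32 * E / m ^ 2 + 2 * T + 8 * (ω * Λ + 64 * X.card * M ^ 2))) :=
  osc_le_of_unit (unit_le hv ht hE hT hM hω hΛ hm hX) l S

/-! ### pointwise bounds -/

theorem bond_cases (v : Z2 → ℝ) (e : Bnd) : ∃ d, ∃ f, (f = lf e ∨ f = rt e) ∧
    |dr v e| = |v (stp d f) - v f| := by
  obtain ⟨⟨i, j⟩, d⟩ := e
  cases d
  · refine ⟨true, (i, j - 1), Or.inr rfl, ?_⟩
    simp [dr, lf, rt, stp]
  · refine ⟨false, (i - 1, j), Or.inl rfl, ?_⟩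
    simp [dr, lf, rt, stp]
    rw [abs_sub_comm]

/-- the gradient of `v` is small -/
theorem sup_le {R : Finset Z2} {v t : Z2 → ℝ} (hv : ∀ f ∈ R, lap v f = 0)
    (ht : ∀ f, f ∉ R → v f = t f) {M ω : ℝ} (hM : ∀ f, |t f| ≤ M) {m : ℕ} (hm : 1 ≤ m)
    {X : Finset Z2} (hX : ∀ f, f ∉ X → ∀ g, g ∉ R → InBox f (m + 1) g → |t f - v f| ≤ ω)
    {e : Bnd} (h1 : lf e ∉ X) (h2 : rt e ∉ X) : |dr v e| ≤ max (2 * M / m) (|dr t e| + 2 * ω) := by
  have hvM : ∀ f, |v f| ≤ M := abs_le_of_harm hv (fun f hf => by rw [ht f hf]; exact hM f)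
  obtain ⟨d, f, hf, hd⟩ := bond_cases v e
  by_cases hc : (m : ℝ) + 1 ≤ dst R f
  · refine le_trans ?_ (le_max_left _ _)
    rw [hd]
    refine grad_le hm (fun p hp => hv p (mem_of_le_dst hc hp)) (fun p q _ _ => ?_) d
    have a1 := abs_le.1 (hvM p)
    have a2 := abs_le.1 (hvM q)
    linarith
  · refine le_trans ?_ (le_max_right _ _)
    push Not at hc
    have hnear : ∀ f, dst R f < m + 2 → f ∉ X → |t f - v f| ≤ ω := by
      intro f hf hfX
      obtain ⟨g, hg, hb⟩ := exists_of_dst_lt (R := R) (f := f) (m := m + 1)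
        (by push_cast; linarith)
      exact hX f hfX g hg hb
    have hb := abs_le.1 (dst_bond R e)
    have k1 : |t (lf e) - v (lf e)| ≤ ω := by
      refine hnear _ ?_ h1
      rcases hf with rfl | rfl <;> linarith [hb.1, hb.2]
    have k2 : |t (rt e) - v (rt e)| ≤ ω := by
      refine hnear _ ?_ h2
      rcases hf with rfl | rfl <;> linarith [hb.1, hb.2]
    have e1 : dr v e = dr t e - ((t (lf e) - v (lf e)) - (t (rt e) - v (rt e))) := by
      simp only [dr]; ring
    rw [e1]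
    refine (abs_sub _ _).trans ?_
    have := abs_sub (t (lf e) - v (lf e)) (t (rt e) - v (rt e))
    linarith

/-- first differences of `φ = G u` -/
theorem phi_first {R : Finset Z2} {v t : Z2 → ℝ} (hv : ∀ f ∈ R, lap v f = 0)
    (ht : ∀ f, f ∉ R → v f = t f) {M ω : ℝ} (hM : ∀ f, |t f| ≤ M) (hω : 0 < ω) {m : ℕ}
    (hm : 1 ≤ m) {f : Z2} (hb : ∀ g, InBox f m g → g ∈ R) (d : Bool) :
    |G ω (t (stp d f) - v (stp d f)) - G ω (t f - v f)| ≤ |t (stp d f) - t f| + 2 * M / m := by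
  have hvM : ∀ f, |v f| ≤ M := abs_le_of_harm hv (fun f hf => by rw [ht f hf]; exact hM f)
  have h1 : |v (stp d f) - v f| ≤ 2 * M / m := by
    refine grad_le hm (fun p hp => hv p (hb p hp)) (fun p q _ _ => ?_) d
    have a1 := abs_le.1 (hvM p)
    have a2 := abs_le.1 (hvM q)
    linarith
  refine (G_lip hω _ _).trans ?_
  have e : t (stp d f) - v (stp d f) - (t f - v f) = (t (stp d f) - t f) - (v (stp d f) - v f) := by
    ring
  rw [e]
  exact (abs_sub _ _).trans (by linarith)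

/-- second differences of `φ = G u` -/
theorem phi_second {R : Finset Z2} {v t : Z2 → ℝ} (hv : ∀ f ∈ R, lap v f = 0)
    (ht : ∀ f, f ∉ R → v f = t f) {M ω K : ℝ} (hM : ∀ f, |t f| ≤ M) (hω : 0 < ω) {m : ℕ}
    (hm : 1 ≤ m) {f : Z2} (hb : ∀ g, InBox f (2 * m + 1) g → g ∈ R)
    (hK : ∀ d g, InBox f 1 g → |t (stp d g) - t g| ≤ K) (d d' : Bool) :
    |G ω (t (stp d (stp d' f)) - v (stp d (stp d' f))) - G ω (t (stp d' f) - v (stp d' f)) -
        G ω (t (stp d f) - v (stp d f)) + G ω (t f - v f)| ≤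
      |t (stp d (stp d' f)) - t (stp d' f) - (t (stp d f) - t f)| + 4 * M / m ^ 2 +
        6 * (K + 2 * M / m) ^ 2 / ω := by
  have hvM : ∀ f, |v f| ≤ M := abs_le_of_harm hv (fun f hf => by rw [ht f hf]; exact hM f)
  have hosc : ∀ p q, v p - v q ≤ 2 * M := by
    intro p q
    have a1 := abs_le.1 (hvM p)
    have a2 := abs_le.1 (hvM q)
    linarith
  have h2 := grad2_le hm (fun p hp => hv p (hb p hp)) (fun p q _ _ => hosc p q) d d'
  have hg : ∀ g, InBox f 1 g → ∀ d, |v (stp d g) - v g| ≤ 2 * M / m := by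
    intro g hg d
    exact grad_le hm (fun p hp => hv p (hb p ((hg.trans hp).mono (by omega))))
      (fun p q _ _ => hosc p q) d
  have hf0 : InBox f 1 f := ⟨by simp, by simp⟩
  have hf1 : InBox f 1 (stp d' f) := by
    cases d' <;> simp [stp, InBox]
  have hu : ∀ g, InBox f 1 g → ∀ d, |t (stp d g) - v (stp d g) - (t g - v g)| ≤
      K + 2 * M / m := by
    intro g hg' d
    have e : t (stp d g) - v (stp d g) - (t g - v g) = (t (stp d g) - t g) -
      (v (stp d g) - v g) := by ring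
    rw [e]
    exact (abs_sub _ _).trans (add_le_add (hK d g hg') (hg g hg' d))
  have k1 := hu f hf0 d'
  have k2 := hu f hf0 d
  have k3 := hu _ hf1 d
  have k4 : |t (stp d (stp d' f)) - v (stp d (stp d' f)) - (t f - v f)| ≤
      2 * (K + 2 * M / m) := by
    have e : t (stp d (stp d' f)) - v (stp d (stp d' f)) - (t f - v f) =
      (t (stp d (stp d' f)) - v (stp d (stp d' f)) - (t (stp d' f) - v (stp d' f))) +
        (t (stp d' f) - v (stp d' f) - (t f - v f)) := by ring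
    rw [e]
    exact (abs_add_le _ _).trans (by linarith)
  refine (G_second hω _ _ _ _ k1 k2 k4).trans ?_
  have e : t (stp d (stp d' f)) - v (stp d (stp d' f)) - (t (stp d' f) - v (stp d' f)) -
      (t (stp d f) - v (stp d f)) + (t f - v f) =
      (t (stp d (stp d' f)) - t (stp d' f) - (t (stp d f) - t f)) -
        (v (stp d (stp d' f)) - v (stp d' f) - (v (stp d f) - v f)) := by ring
  rw [e]
  have h3 := abs_sub (t (stp d (stp d' f)) - t (stp d' f) - (t (stp d f) - t f))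
    (v (stp d (stp d' f)) - v (stp d' f) - (v (stp d f) - v f))
  have e2 : 2 * (2 * M) / (m : ℝ) ^ 2 = 4 * M / m ^ 2 := by ring
  rw [e2] at h2
  linarith

end Vale.Agent.P159.T1.S.H376
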