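import Vale.Agent.P159.T1.S.H376.Phi
import Vale.Agent.P159.T1.S.H130.EnT

/-! # P159, T1, stage 2: row StmtOsc from StmtCL -/

open Finset
open Vale.Agent.P159.T1.D
open Vale.Agent.P159.T1.H775

namespace Vale.Agent.P159.T1.S.H376

/-- the gradient of the tent is small -/
theorem tent_small {K c1 : ℝ} {n0 r : ℕ} {t : Z2 → ℝ} (hT : Tent K c1 n0 r t) (hn : 1 ≤ n0)
    (e : Bnd) : |dr t e| ≤ 2 * K / n0 := by
  obtain ⟨d, f, _, hd⟩ := bond_cases t e
  have hn0 : (0 : ℝ) < n0 := by exact_mod_cast hn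
  have hK : 0 ≤ K := (hT.nonneg f).trans (hT.le f)
  rw [hd]
  by_cases h : n0 ≤ 2 * (ns r f + 1)
  · have h1 := hT.grad f d
    have h2 : (n0 : ℝ) ≤ 2 * (ns r f + 1) := by exact_mod_cast h
    rw [le_div_iff₀ hn0]
    calc |t (stp d f) - t f| * (n0 : ℝ) ≤ |t (stp d f) - t f| * (2 * (ns r f + 1)) :=
          mul_le_mul_of_nonneg_left h2 (abs_nonneg _)
      _ = 2 * ((1 + ns r f : ℝ) * |t (stp d f) - t f|) := by ring
      _ ≤ 2 * K := by linarith
  · push Not at h
    have h1 := (ns_stp r d f).1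
    rw [hT.near f (by omega), hT.near (stp d f) (by omega), sub_self, abs_zero]
    positivity

/-- **row StmtOsc** -/
theorem stmtOsc (hCL : StmtCL) : StmtOsc := by
  intro K ε c1 l hK hε hc1 hc1'
  set P : ℝ := (2 * l + 1) ^ 2 * 4 ^ (l + 1) with hP
  have hP0 : 0 < P := by positivity
  set ω : ℝ := min (ε / 8) (ε / (1152 * K * P)) with hωd
  have hω : 0 < ω := lt_min (by positivity) (by positivity)
  have hω1 : ω ≤ ε / 8 := min_le_left _ _
  have hω2 : 1152 * K * P * ω ≤ ε := by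
    have : ω ≤ ε / (1152 * K * P) := min_le_right _ _
    rw [le_div_iff₀ (by positivity)] at this
    linarith
  obtain ⟨δ, hδ, hcl⟩ := hCL K ω hK hω
  set m : ℕ := ⌈9216 * K ^ 2 * P / ε⌉₊ + ⌈8 * K / ε⌉₊ + 1 with hm
  have hm1 : 1 ≤ m := by omega
  have hm0 : (0 : ℝ) < m := by exact_mod_cast hm1
  have hm1' : (1 : ℝ) ≤ m := by exact_mod_cast hm1
  have hmA : 9216 * K ^ 2 * P ≤ ε * m := by
    have h1 : 9216 * K ^ 2 * P / ε ≤ m := by
      refine (Nat.le_ceil _).trans ?_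
      have : ⌈9216 * K ^ 2 * P / ε⌉₊ ≤ m := by omega
      exact_mod_cast this
    rw [div_le_iff₀ hε] at h1
    linarith
  have hmB : 8 * K ≤ ε * m := by
    have h1 : 8 * K / ε ≤ m := by
      refine (Nat.le_ceil _).trans ?_
      have : ⌈8 * K / ε⌉₊ ≤ m := by omega
      exact_mod_cast this
    rw [div_le_iff₀ hε] at h1
    linarith
  refine ⟨⌈((m : ℝ) + 1) / δ⌉₊ + ⌈8 * K / ε⌉₊ + 1, ?_⟩
  intro n0 hn0
  have hn1 : 1 ≤ n0 := by omega
  have hn0' : (0 : ℝ) < n0 := by exact_mod_cast hn1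
  have hnA : (m : ℝ) + 1 ≤ δ * n0 := by
    have h1 : ((m : ℝ) + 1) / δ ≤ n0 := by
      refine (Nat.le_ceil _).trans ?_
      have : ⌈((m : ℝ) + 1) / δ⌉₊ ≤ n0 := by omega
      exact_mod_cast this
    rw [div_le_iff₀ hδ] at h1
    linarith
  have hnB : 8 * K ≤ ε * n0 := by
    have h1 : 8 * K / ε ≤ n0 := by
      refine (Nat.le_ceil _).trans ?_
      have : ⌈8 * K / ε⌉₊ ≤ n0 := by omega
      exact_mod_cast this
    rw [div_le_iff₀ hε] at h1
    linarith
  refine ⟨P * (2160 * K ^ 2) + ε + 288 * K ^ 2, ?_⟩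
  intro r R t v hr hT hU hH hR
  obtain ⟨ht, hv⟩ := hH
  have hr1 : (1 : ℝ) ≤ r := by exact_mod_cast hr
  have hlog : 0 ≤ Real.log r := Real.log_nonneg hr1
  have hcl' := hcl c1 n0 r R t v hc1 hc1' hT hU ⟨ht, hv⟩
  have hM : ∀ f, |t f| ≤ K := fun f => by
    rw [abs_of_nonneg (hT.nonneg f)]; exact hT.le f
  have hX : ∀ f, f ∉ (∅ : Finset Z2) → ∀ g, g ∉ R → InBox f (m + 1) g → |t f - v f| ≤ ω := by
    intro f _ g hg hb
    have h1 : (m : ℝ) + 1 ≤ δ * max (n0 : ℝ) (ns r f) :=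
      hnA.trans (mul_le_mul_of_nonneg_left (le_max_left _ _) hδ.le)
    have c1 : |((g.1 - f.1 : ℤ) : ℝ)| ≤ (m : ℝ) + 1 := by
      have := hb.1
      have h2 : ((|g.1 - f.1| : ℤ) : ℝ) ≤ (((m + 1 : ℕ) : ℤ) : ℝ) := by exact_mod_cast this
      rw [← Int.cast_abs]
      refine h2.trans (le_of_eq ?_)
      push_cast; ring
    have c2 : |((g.2 - f.2 : ℤ) : ℝ)| ≤ (m : ℝ) + 1 := by
      have := hb.2
      have h2 : ((|g.2 - f.2| : ℤ) : ℝ) ≤ (((m + 1 : ℕ) : ℤ) : ℝ) := by exact_mod_cast this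
      rw [← Int.cast_abs]
      refine h2.trans (le_of_eq ?_)
      push_cast; ring
    exact hcl' f g hg (c1.trans h1) (c2.trans h1)
  have hE := H130.tent_energy hc1' hr hT
  have hL := H130.tent_lap hc1' hr hT R hR
  have hsh := fun d => H130.tent_sh hT d
  refine ⟨?_, ?_, ?_, ?_⟩
  · intro e
    have h1 := sup_le hv ht hM hm1 hX (e := e) (by simp) (by simp)
    have h2 := tent_small hT hn1 e
    have h3 : 2 * K / n0 ≤ ε / 4 := by
      rw [div_le_iff₀ hn0']; linarith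
    have h4 : 2 * K / m ≤ ε / 4 := by
      rw [div_le_iff₀ hm0]; linarith
    have h5 : |dr v e| ≤ 3 * ε / 4 := h1.trans (max_le (by linarith) (by linarith))
    have e1 : dr (fun f => t f - v f) e = dr t e - dr v e := by simp only [dr]; ring
    rw [e1]
    exact (abs_sub _ _).trans (by linarith)
  · intro S
    have hun := unit_le hv ht hE hsh hM hω.le hL hm1 hX
    have hu : ∀ d, Sh (dr fun f => t f - v f) (2 * (360 * K ^ 2) +
        2 * (32 * (72 * K ^ 2 * (1 + Real.log r)) / m ^ 2 + 2 * (360 * K ^ 2) +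
          8 * (ω * (36 * K * (1 + Real.log r)) + 64 * ((∅ : Finset Z2).card : ℝ) * K ^ 2)))
          (ud d) := by
      intro d S'
      have h1 := hsh d S'
      have h2 := hun d S'
      calc _ ≤ ∑ e ∈ S', (2 * (dr t (sh (ud d) e) - dr t e) ^ 2 +
            2 * (dr v (sh (ud d) e) - dr v e) ^ 2) := by
            refine Finset.sum_le_sum fun e _ => ?_
            have e1 : ∀ e, dr (fun f => t f - v f) e = dr t e - dr v e := by
              intro e; simp only [dr]; ring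
            rw [e1, e1]
            nlinarith [sq_nonneg ((dr t (sh (ud d) e) - dr t e) +
              (dr v (sh (ud d) e) - dr v e))]
        _ = 2 * ∑ e ∈ S', (dr t (sh (ud d) e) - dr t e) ^ 2 +
            2 * ∑ e ∈ S', (dr v (sh (ud d) e) - dr v e) ^ 2 := by
            rw [Finset.sum_add_distrib, ← Finset.mul_sum, ← Finset.mul_sum]
        _ ≤ _ := by
            refine add_le_add (mul_le_mul_of_nonneg_left ?_ (by norm_num))
              (mul_le_mul_of_nonneg_left h2 (by norm_num))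
            exact h1
    refine (osc_le_of_unit hu l S).trans ?_
    simp only [Finset.card_empty, Nat.cast_zero, mul_zero, zero_mul, add_zero]
    set L : ℝ := 1 + Real.log r with hLd
    have hL0 : 0 ≤ L := by linarith
    have a1 : P * (2 * (32 * (72 * K ^ 2 * L) / m ^ 2)) ≤ ε / 2 * L := by
      have h1 : P * (2 * (32 * (72 * K ^ 2 * L) / m ^ 2)) =
        (4608 * K ^ 2 * P) * L / m ^ 2 := by ring
      rw [h1, div_le_iff₀ (by positivity)]
      have h2 : 4608 * K ^ 2 * P ≤ ε / 2 * m := by linarith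
      have h3 : ε / 2 * (m : ℝ) ≤ ε / 2 * m ^ 2 := by
        refine mul_le_mul_of_nonneg_left ?_ (by positivity)
        nlinarith
      calc (4608 * K ^ 2 * P) * L ≤ (ε / 2 * m ^ 2) * L :=
            mul_le_mul_of_nonneg_right (h2.trans h3) hL0
        _ = ε / 2 * L * m ^ 2 := by ring
    have a2 : P * (2 * (8 * (ω * (36 * K * L)))) ≤ ε / 2 * L := by
      have h1 : P * (2 * (8 * (ω * (36 * K * L)))) = (1152 * K * P * ω) / 2 * L := by ring
      rw [h1]
      refine mul_le_mul_of_nonneg_right ?_ hL0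
      linarith
    have e1 : (2 * (l : ℝ) + 1) ^ 2 * (4 ^ (l + 1) * (2 * (360 * K ^ 2) +
        2 * (32 * (72 * K ^ 2 * L) / m ^ 2 + 2 * (360 * K ^ 2) + 8 * (ω * (36 * K * L))))) =
        P * (2160 * K ^ 2) + P * (2 * (32 * (72 * K ^ 2 * L) / m ^ 2)) +
          P * (2 * (8 * (ω * (36 * K * L)))) := by rw [hP]; ring
    rw [e1]
    have e2 : ε / 2 * L + ε / 2 * L = ε * Real.log r + ε := by rw [hLd]; ring
    have h0 : 0 ≤ 288 * K ^ 2 := by positivity
    linarith
  · intro S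
    have h1 := H130.u_energy hc1' hr hT ⟨ht, hv⟩ S
    have h2 : 0 ≤ (P * (2160 * K ^ 2) + ε) * (Real.log r + 1) := by positivity
    nlinarith
  · intro S
    have h1 := H130.v_energy hc1' hr hT ⟨ht, hv⟩ S
    have h2 : 0 ≤ (P * (2160 * K ^ 2) + ε + 216 * K ^ 2) * (Real.log r + 1) := by positivity
    nlinarith

end Vale.Agent.P159.T1.S.H376
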