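import Vale.Agent.P159.T1.S.H376.PhiA

/-! # P159, T1, stage 2: row StmtPhi from StmtCL -/

open Finset
open Vale.Agent.P159.T1.D
open Vale.Agent.P159.T1.H775

namespace Vale.Agent.P159.T1.S.H376

/-- the charges of the tent -/
theorem sum_lap_le {K c1 : ℝ} {n0 r : ℕ} {R : Finset Z2} {t : Z2 → ℝ} (hK : 0 < K)
    (hc : c1 ≤ 1 / 8) (hr : 1 ≤ r) (hT : Tent K c1 n0 r t) (hR : ∀ f ∈ R, f ∉ slit r) :
    ∑ f ∈ R, |lap t f| ≤ 16 * K * (3 + Real.log r) := by
  classical
  have hr1 : (1 : ℝ) ≤ r := by exact_mod_cast hr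
  have h1 : ∀ f ∈ R, |lap t f| ≤ if ns r f ≤ r + 1 then K * (1 / (1 + ns r f : ℝ) ^ 2) else 0 := by
    intro f hf
    split_ifs with h
    · have h2 := hT.lap f (hR f hf)
      rw [mul_one_div, le_div_iff₀ (by positivity), mul_comm]
      exact h2
    · have hz : ∀ g, InBox f 1 g → t g = 0 := by
        intro g hg
        apply hT.far
        have h3 : ns r f ≤ ns r g + 1 := ns_lip r hg
        have h4 : r + 1 ≤ ns r g := by omega
        have h5 : (r : ℝ) + 1 ≤ ns r g := by exact_mod_cast h4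
        nlinarith
      have h0 := hz f (inBox_self f 1)
      have h2 := hz (f.1 + 1, f.2) (by simp [InBox])
      have h3 := hz (f.1 - 1, f.2) (by simp [InBox])
      have h4 := hz (f.1, f.2 + 1) (by simp [InBox])
      have h5 := hz (f.1, f.2 - 1) (by simp [InBox])
      rw [lap, h0, h2, h3, h4, h5]
      simp
  refine (Finset.sum_le_sum h1).trans ?_
  rw [← Finset.sum_filter, ← Finset.mul_sum]
  have h2 := sum_ns_le (R.filter fun f => ns r f ≤ r + 1) r (r + 1)
    (fun f hf => (Finset.mem_filter.1 hf).2)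
  have h3 : Real.log (((r + 1 : ℕ) : ℝ) + 1) ≤ 2 + Real.log r := by
    have h4 : (((r + 1 : ℕ) : ℝ) + 1) ≤ 3 * r := by push_cast; linarith
    have h5 : Real.log (((r + 1 : ℕ) : ℝ) + 1) ≤ Real.log (3 * r) :=
      Real.log_le_log (by positivity) h4
    rw [Real.log_mul (by norm_num) (by positivity)] at h5
    have h6 : Real.log 3 ≤ 2 := by
      have := Real.log_le_sub_one_of_pos (show (0 : ℝ) < 3 by norm_num)
      linarith
    linarith
  calc _ ≤ K * (16 * (1 + Real.log (((r + 1 : ℕ) : ℝ) + 1))) :=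
        mul_le_mul_of_nonneg_left h2 hK.le
    _ ≤ K * (16 * (1 + (2 + Real.log r))) := by
        refine mul_le_mul_of_nonneg_left ?_ hK.le
        linarith
    _ = 16 * K * (3 + Real.log r) := by ring

/-- the energy of the difference -/
theorem phi_energy {K ω c1 : ℝ} {n0 r : ℕ} {R : Finset Z2} {t v : Z2 → ℝ} (hK : 0 < K)
    (hω : 0 < ω) (hc : c1 ≤ 1 / 8) (hr : 1 ≤ r) (hT : Tent K c1 n0 r t) (hH : Harm R t v)
    (hR : ∀ f ∈ R, f ∉ slit r) (hX : 1 ≤ c1 * r) (S : Finset Bnd) :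
    ∑ e ∈ S, (dr (fun f => t f - v f) e - dr (fun f => chf ((r : ℝ) - 1) (1 / (c1 * r)) f *
      G ω (t f - v f)) e) ^ 2 ≤
      128 * ω * K * (3 + Real.log r) + (4 * (7744 * K ^ 2) + 80 * K ^ 2 * 123904) := by
  classical
  obtain ⟨ht, hv⟩ := hH
  have hM : ∀ f, |t f| ≤ K := fun f => by
    rw [abs_of_nonneg (hT.nonneg f)]; exact hT.le f
  have hvM : ∀ f, |v f| ≤ K := abs_le_of_harm hv (fun f hf => by rw [ht f hf]; exact hM f)
  have hu : ∀ f, |t f - v f| ≤ 2 * K := fun f => (abs_sub _ _).trans (by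
    have := hM f; have := hvM f; linarith)
  have hG : ∀ f, |G ω (t f - v f)| ≤ 2 * K := by
    intro f
    have h1 := G_lip hω 0 (t f - v f)
    rw [G_low hω (x := 0) (by simpa using hω.le), sub_zero, sub_zero] at h1
    exact h1.trans (hu f)
  set X : ℝ := c1 * r with hXd
  have hX0 : 0 < X := by linarith
  have hh : (0 : ℝ) ≤ 1 / X := by positivity
  set χ : Z2 → ℝ := chf ((r : ℝ) - 1) (1 / X) with hχ
  have hbd : Bd (16 * (1 / X)) (256 * (1 / X) ^ 2) χ := bd_chf hh
  set u : Z2 → ℝ := fun f => t f - v f with hud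
  -- the pointwise inequality
  have hpt : ∀ e : Bnd, (dr u e - dr (fun f => χ f * G ω (u f)) e) ^ 2 ≤
      4 * ((1 - χ (lf e)) ^ 2 * dr u e ^ 2) + 4 * (dr u e - dr (fun f => G ω (u f)) e) ^ 2 +
        80 * K ^ 2 * dr χ e ^ 2 := by
    intro e
    have hc1 := hbd.mem (lf e)
    set x := u (lf e) with hx
    set y := u (rt e) with hy
    set a := χ (lf e) with ha
    set b := χ (rt e) with hb
    set p := G ω x with hp
    set q := G ω y with hq
    have e1 : dr u e = x - y := rfl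
    have e2 : dr (fun f => χ f * G ω (u f)) e = a * p - b * q := rfl
    have e3 : dr (fun f => G ω (u f)) e = p - q := rfl
    have e4 : dr χ e = a - b := rfl
    rw [e1, e2, e3, e4]
    have hy2 : y ^ 2 ≤ 4 * K ^ 2 := by
      have := pow_le_pow_left₀ (abs_nonneg _) (hu (rt e)) 2
      rw [sq_abs] at this
      calc y ^ 2 ≤ (2 * K) ^ 2 := this
        _ = 4 * K ^ 2 := by ring
    have hq2 : (y - q) ^ 2 ≤ 16 * K ^ 2 := by
      have h1 : |y - q| ≤ 4 * K := by
        have h2 : |y| ≤ 2 * K := hu (rt e)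
        have h3 : |q| ≤ 2 * K := hG (rt e)
        exact (abs_sub _ _).trans (by linarith)
      have := pow_le_pow_left₀ (abs_nonneg _) h1 2
      rw [sq_abs] at this
      calc (y - q) ^ 2 ≤ (4 * K) ^ 2 := this
        _ = 16 * K ^ 2 := by ring
    have e5 : x - y - (a * p - b * q) =
        (1 - a) * (x - y) + a * (x - y - (p - q)) - (a - b) * y + (a - b) * (y - q) := by ring
    have h4 : ∀ A B C D : ℝ, (A + B - C + D) ^ 2 ≤ 4 * (A ^ 2 + B ^ 2 + C ^ 2 + D ^ 2) := by
      intro A B C D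
      nlinarith [sq_nonneg (A - B), sq_nonneg (A + C), sq_nonneg (A - D), sq_nonneg (B + C),
        sq_nonneg (B - D), sq_nonneg (C + D)]
    rw [e5]
    refine (h4 _ _ _ _).trans ?_
    have h5 : (a * (x - y - (p - q))) ^ 2 ≤ (x - y - (p - q)) ^ 2 := by
      rw [mul_pow]
      have : a ^ 2 ≤ 1 := by nlinarith [hc1.1, hc1.2]
      exact mul_le_of_le_one_left (sq_nonneg _) this
    have h6 : ((a - b) * y) ^ 2 ≤ 4 * K ^ 2 * (a - b) ^ 2 := by
      rw [mul_pow, mul_comm]; exact mul_le_mul_of_nonneg_right hy2 (sq_nonneg _)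
    have h7 : ((a - b) * (y - q)) ^ 2 ≤ 16 * K ^ 2 * (a - b) ^ 2 := by
      rw [mul_pow, mul_comm]; exact mul_le_mul_of_nonneg_right hq2 (sq_nonneg _)
    have h8 : ((1 - a) * (x - y)) ^ 2 = (1 - a) ^ 2 * (x - y) ^ 2 := by ring
    rw [h8]
    linarith
  -- the three sums
  have s1 : ∑ e ∈ S, (1 - χ (lf e)) ^ 2 * dr u e ^ 2 ≤ 7744 * K ^ 2 := by
    have h1 : ∀ e ∈ S, (1 - χ (lf e)) ^ 2 * dr u e ^ 2 ≤
        if 3 * X ≤ (ns r (lf e) : ℝ) then dr v e ^ 2 else 0 := by
      intro e _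
      split_ifs with h
      · have h2 : t (lf e) = 0 := hT.far _ (by
          rw [mul_assoc]; exact le_trans (by linarith) h)
        have h3 : t (rt e) = 0 := hT.far _ (by
          have : (ns r (lf e) : ℝ) ≤ ns r (rt e) + 1 := by exact_mod_cast (ns_bond r e).1
          rw [mul_assoc]; linarith)
        have h4 : dr u e ^ 2 = dr v e ^ 2 := by
          simp only [dr, hud, h2, h3]; ring
        rw [h4]
        have hm := hbd.mem (lf e)
        have : (1 - χ (lf e)) ^ 2 ≤ 1 := by nlinarith [hm.1, hm.2]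
        exact mul_le_of_le_one_left (sq_nonneg _) this
      · have h2 : χ (lf e) = 1 := by
          refine chf_one hh ?_
          push Not at h
          rw [mul_one_div, div_le_iff₀ hX0]; exact h.le
        rw [h2]; simp
    refine (Finset.sum_le_sum h1).trans ?_
    rw [← Finset.sum_filter]
    exact far_energy hv ht hvM hX (fun f hf => hT.far f (by rw [mul_assoc]; exact hf)) _
      (fun e he => (Finset.mem_filter.1 he).2)
  have s2 : ∑ e ∈ S, (dr u e - dr (fun f => G ω (u f)) e) ^ 2 ≤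
      32 * ω * K * (3 + Real.log r) := by
    refine (cut_energy hv ht hω S).trans ?_
    have := mul_le_mul_of_nonneg_left (sum_lap_le hK hc hr hT hR)
      (by positivity : (0 : ℝ) ≤ 2 * ω)
    linarith
  have s3 : ∑ e ∈ S, dr χ e ^ 2 ≤ 123904 := by
    set N : ℕ := ⌊5 * X⌋₊ with hN
    have hN1 : (N : ℝ) ≤ 5 * X := Nat.floor_le (by positivity)
    have hgc := grad_count (r := r) (N := N) (a := χ) (β := 16 * (1 / X)) (fun e => by
      obtain ⟨d, f, hf, hd⟩ := bond_cases χ e
      rw [hd]; exact hbd.fst f d) (fun e he => by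
        by_contra hcon
        apply he
        push Not at hcon
        have h5 : 5 * X < ns r (lf e) := (Nat.floor_lt (by positivity)).1 hcon
        have h6 : (ns r (lf e) : ℝ) ≤ ns r (rt e) + 1 := by exact_mod_cast (ns_bond r e).1
        have hz : ∀ g, 4 * X ≤ (ns r g : ℝ) → χ g = 0 := by
          intro g hg
          by_contra hcg
          have h7 := chf_supp hh hcg
          rw [mul_one_div, div_lt_iff₀ hX0] at h7
          linarith
        rw [dr, hz _ (by linarith), hz _ (by linarith), sub_self]) S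
    refine hgc.trans ?_
    have h2 : (2 * (N : ℝ) + 1) * (1 / X) ≤ 11 := by
      rw [mul_one_div, div_le_iff₀ hX0]; linarith
    have h3 : ((2 * (N : ℝ) + 1) * (1 / X)) ^ 2 ≤ 11 ^ 2 :=
      pow_le_pow_left₀ (by positivity) h2 2
    have e : 4 * (2 * (N : ℝ) + 1) ^ 2 * (16 * (1 / X)) ^ 2 =
      1024 * ((2 * (N : ℝ) + 1) * (1 / X)) ^ 2 := by ring
    rw [e]; linarith
  calc _ ≤ ∑ e ∈ S, (4 * ((1 - χ (lf e)) ^ 2 * dr u e ^ 2) +
        4 * (dr u e - dr (fun f => G ω (u f)) e) ^ 2 + 80 * K ^ 2 * dr χ e ^ 2) :=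
        Finset.sum_le_sum fun e _ => hpt e
    _ = 4 * ∑ e ∈ S, (1 - χ (lf e)) ^ 2 * dr u e ^ 2 +
        4 * ∑ e ∈ S, (dr u e - dr (fun f => G ω (u f)) e) ^ 2 +
        80 * K ^ 2 * ∑ e ∈ S, dr χ e ^ 2 := by
        rw [Finset.sum_add_distrib, Finset.sum_add_distrib, ← Finset.mul_sum, ← Finset.mul_sum,
          ← Finset.mul_sum]
    _ ≤ 4 * (7744 * K ^ 2) + 4 * (32 * ω * K * (3 + Real.log r)) + 80 * K ^ 2 * 123904 := by
        have := mul_le_mul_of_nonneg_left s3 (by positivity : (0 : ℝ) ≤ 80 * K ^ 2)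
        linarith
    _ = _ := by ring

/-- **row StmtPhi** -/
theorem stmtPhi (hCL : StmtCL) : StmtPhi := by
  intro K ε hK hε
  set ω : ℝ := ε / (128 * K) with hωd
  have hω : 0 < ω := by positivity
  obtain ⟨δ, hδ, hcl⟩ := hCL K ω hK hω
  set M : ℝ := 2 * K + (96 * (2 * K) + (K + 64 * K / δ)) + (12544 * (2 * K) +
    (K + 4 * K * (32 / δ) ^ 2 + 6 * (2 * K + 64 * K / δ) ^ 2 / ω) +
      2 * (96 * (2 * K + 64 * K / δ))) with hMd
  have hM1 : 0 < 2 * K := by positivity
  have hM2 : 0 < 96 * (2 * K) + (K + 64 * K / δ) := by positivity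
  have hM3 : 0 < 12544 * (2 * K) + (K + 4 * K * (32 / δ) ^ 2 + 6 * (2 * K + 64 * K / δ) ^ 2 / ω) +
      2 * (96 * (2 * K + 64 * K / δ)) := by positivity
  have hM : 0 < M := by linarith
  refine ⟨δ, M, hδ, hM, ?_⟩
  intro c1 n1 hc1 hc1'
  refine ⟨⌈(16 + n1 : ℝ) / δ⌉₊ + 4, ?_⟩
  intro n0 hn0
  have hn4 : (4 : ℝ) ≤ n0 := by
    have : 4 ≤ n0 := by omega
    exact_mod_cast this
  have hnδ : (16 + n1 : ℝ) ≤ δ * n0 := by
    have h1 : ⌈(16 + n1 : ℝ) / δ⌉₊ ≤ n0 := by omega
    have h2 : (16 + n1 : ℝ) / δ ≤ n0 := (Nat.le_ceil _).trans (by exact_mod_cast h1)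
    rw [div_le_iff₀ hδ] at h2
    linarith
  have hn1 : (0 : ℝ) ≤ n1 := Nat.cast_nonneg _
  refine ⟨3 * ε + (4 * (7744 * K ^ 2) + 80 * K ^ 2 * 123904), ?_⟩
  intro r R t v hr hT hU hH hR
  have hr1 : (1 : ℝ) ≤ r := by exact_mod_cast hr
  have hlog : 0 ≤ Real.log r := Real.log_nonneg hr1
  have hcl' := hcl c1 n0 r R t v hc1 (by linarith) hT hU hH
  have hKC : 0 ≤ 4 * (7744 * K ^ 2) + 80 * K ^ 2 * 123904 := by positivity
  by_cases hz : 4 * (c1 * r) ≤ n0
  · -- the tent is zero
    have ht0 : ∀ f, t f = 0 := by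
      intro f
      by_cases h : 2 * c1 * r ≤ ns r f
      · exact hT.far f h
      · push Not at h
        apply hT.near
        have h2 : 2 * (ns r f : ℝ) < n0 := by
          have : 2 * c1 * (r : ℝ) = 2 * (c1 * r) := by ring
          rw [this] at h
          linarith
        exact_mod_cast h2.le
    have hv0 : ∀ f, v f = 0 := by
      intro f
      have := abs_le_of_harm (M := 0) hH.2 (fun g hg => by rw [hH.1 g hg, ht0 g]; simp) f
      simpa using this
    refine ⟨fun _ => 0, ?_, ?_, ?_, ?_, ?_⟩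
    · intro f hf; exact absurd rfl hf
    · intro f; simpa using hM.le
    · intro f d; simpa using hM.le
    · intro f d d'; simpa using hM.le
    · intro S
      have : ∑ e ∈ S, (dr (fun f => t f - v f) e - dr (fun _ => (0 : ℝ)) e) ^ 2 = 0 :=
        Finset.sum_eq_zero fun e _ => by simp [dr, ht0, hv0]
      rw [this]
      positivity
  · push Not at hz
    have hX : 1 ≤ c1 * r := by linarith
    have hX0 : 0 < c1 * (r : ℝ) := by linarith
    have hh : (0 : ℝ) ≤ 1 / (c1 * r) := by positivity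
    obtain ⟨b1, b2, b3⟩ := phi_bounds hK hδ hω hT hH hR hcl' (by linarith) hn4 hX
    refine ⟨fun f => chf ((r : ℝ) - 1) (1 / (c1 * r)) f * G ω (t f - v f), ?_, ?_, ?_, ?_, ?_⟩
    · intro f hf
      have hχ : chf ((r : ℝ) - 1) (1 / (c1 * r)) f ≠ 0 := left_ne_zero_of_mul hf
      have hG : G ω (t f - v f) ≠ 0 := right_ne_zero_of_mul hf
      have hu : ω < |t f - v f| := by
        by_contra hc
        push Not at hc
        exact hG (G_low hω hc)
      have hmax : δ * (ns r f : ℝ) ≤ δ * max (n0 : ℝ) (ns r f) :=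
        mul_le_mul_of_nonneg_left (le_max_right _ _) hδ.le
      refine ⟨?_, ?_, ?_⟩
      · by_contra hc
        push Not at hc
        obtain ⟨g, hg, g1, g2⟩ := near_slit r f
        have hgR : g ∉ R := fun h => hR g h hg
        have h1 : (ns r f : ℝ) + 1 ≤ n1 := by exact_mod_cast hc
        have h2 : δ * (n0 : ℝ) ≤ δ * max (n0 : ℝ) (ns r f) :=
          mul_le_mul_of_nonneg_left (le_max_left _ _) hδ.le
        exact absurd (hcl' f g hgR (by linarith) (by linarith)) (not_le.2 hu)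
      · have h7 := chf_supp hh hχ
        rw [mul_one_div, div_lt_iff₀ hX0] at h7
        linarith
      · intro g g1 g2
        by_contra hgR
        exact absurd (hcl' f g hgR (g1.trans hmax) (g2.trans hmax)) (not_le.2 hu)
    · intro f; exact (b1 f).trans (by linarith)
    · intro f d; exact (b2 f d).trans (by linarith)
    · intro f d d'; exact (b3 f d d').trans (by linarith)
    · intro S
      refine (phi_energy hK hω (by linarith) hr hT hH hR hX S).trans ?_
      have e : 128 * ω * K = ε := by rw [hωd]; field_simp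
      rw [e]
      linarith

end Vale.Agent.P159.T1.S.H376
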