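import Vale.Agent.P159.T1.H775.Harm

/-! # P159, T1, stage 2, row S.EN, part (P2): energies

`v` is harmonic on the finite set `R` of faces and equal to `t` off `R`; `u = t - v`. -/

open Finset
open Vale.Agent.P159.T1.D
open Vale.Agent.P159.T1.H775

namespace Vale.Agent.P159.T1.S.H376

/-- energy minimality -/
theorem energy_le {R : Finset Z2} {v t : Z2 → ℝ} (hv : ∀ f ∈ R, lap v f = 0)
    (ht : ∀ f, f ∉ R → v f = t f) {E : ℝ} (hE : ∀ S : Finset Bnd, ∑ e ∈ S, dr t e ^ 2 ≤ E)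
    (S : Finset Bnd) : ∑ e ∈ S, dr v e ^ 2 ≤ E := by
  classical
  have h := orth (S := S ∪ bd R) Finset.subset_union_right hv (w := fun f => v f - t f)
    (fun f hf => by simp [ht f hf])
  have h1 : ∀ e, dr v e ^ 2 ≤ dr t e ^ 2 + 2 * (dr v e * dr (fun f => v f - t f) e) := by
    intro e
    simp only [dr]
    nlinarith [sq_nonneg (v (lf e) - v (rt e) - (t (lf e) - t (rt e)))]
  calc ∑ e ∈ S, dr v e ^ 2 ≤ ∑ e ∈ S ∪ bd R, dr v e ^ 2 :=
        Finset.sum_le_sum_of_subset_of_nonneg Finset.subset_union_left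
          (fun e _ _ => sq_nonneg _)
    _ ≤ ∑ e ∈ S ∪ bd R, (dr t e ^ 2 + 2 * (dr v e * dr (fun f => v f - t f) e)) :=
        Finset.sum_le_sum fun e _ => h1 e
    _ = ∑ e ∈ S ∪ bd R, dr t e ^ 2 := by
        rw [Finset.sum_add_distrib, ← Finset.mul_sum, h]; ring
    _ ≤ E := hE _

/-- **(P2)**: the energy of a bounded nondecreasing contraction of `u` -/
theorem contr_energy {R : Finset Z2} {v t : Z2 → ℝ} (hv : ∀ f ∈ R, lap v f = 0)
    (ht : ∀ f, f ∉ R → v f = t f) {H : ℝ → ℝ} {ω : ℝ} (h0 : H 0 = 0)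
    (hm : ∀ a b, (H a - H b) ^ 2 ≤ (a - b) * (H a - H b)) (hb : ∀ a, |H a| ≤ ω)
    (S : Finset Bnd) :
    ∑ e ∈ S, dr (fun f => H (t f - v f)) e ^ 2 ≤ ω * ∑ f ∈ R, |lap t f| := by
  classical
  have h1 : ∀ e, dr (fun f => H (t f - v f)) e ^ 2 ≤
      dr (fun f => t f - v f) e * dr (fun f => H (t f - v f)) e := fun e => hm _ _
  calc ∑ e ∈ S, dr (fun f => H (t f - v f)) e ^ 2
      ≤ ∑ e ∈ S ∪ bd R, dr (fun f => H (t f - v f)) e ^ 2 :=
        Finset.sum_le_sum_of_subset_of_nonneg Finset.subset_union_left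
          (fun e _ _ => sq_nonneg _)
    _ ≤ ∑ e ∈ S ∪ bd R, dr (fun f => t f - v f) e * dr (fun f => H (t f - v f)) e :=
        Finset.sum_le_sum fun e _ => h1 e
    _ = ∑ f ∈ R, dvg (dr (fun f => t f - v f)) f * H (t f - v f) :=
        parts Finset.subset_union_right _ (fun f hf => by
          rw [ht f hf, sub_self, h0])
    _ ≤ ∑ f ∈ R, ω * |lap t f| := by
        refine Finset.sum_le_sum fun f hf => ?_
        rw [dvg_dr, lap_sub, hv f hf, sub_zero]
        calc -lap t f * H (t f - v f) ≤ |-lap t f * H (t f - v f)| := le_abs_self _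
          _ = |lap t f| * |H (t f - v f)| := by rw [abs_mul, abs_neg]
          _ ≤ |lap t f| * ω := mul_le_mul_of_nonneg_left (hb _) (abs_nonneg _)
          _ = ω * |lap t f| := mul_comm _ _
    _ = ω * ∑ f ∈ R, |lap t f| := by rw [← Finset.mul_sum]

/-- truncation -/
noncomputable def clamp (s x : ℝ) : ℝ := max (-s) (min x s)

theorem clamp_of_abs {s x : ℝ} (h : |x| ≤ s) : clamp s x = x := by
  obtain ⟨h1, h2⟩ := abs_le.1 h
  rw [clamp, min_eq_left h2, max_eq_right h1]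

theorem clamp_abs {s : ℝ} (hs : 0 ≤ s) (x : ℝ) : |clamp s x| ≤ s := by
  rw [clamp, abs_le]
  exact ⟨le_max_left _ _, max_le (by linarith) (min_le_right _ _)⟩

theorem clamp_mono (s : ℝ) {x y : ℝ} (h : x ≤ y) : clamp s x ≤ clamp s y :=
  max_le_max le_rfl (min_le_min h le_rfl)

theorem clamp_sub_le (s : ℝ) {x y : ℝ} (h : x ≤ y) : clamp s y - clamp s x ≤ y - x := by
  have h1 : clamp s y ≤ clamp s x + (y - x) := by
    refine max_le ?_ ?_
    · have := le_max_left (-s) (min x s)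
      rw [clamp]; linarith
    · have h2 := le_max_right (-s) (min x s)
      rw [clamp]
      rcases le_total x s with hx | hx
      · rw [min_eq_left hx] at h2 ⊢
        have := min_le_left y s
        linarith
      · rw [min_eq_right hx] at h2 ⊢
        have := min_le_right y s
        linarith
  linarith

/-- nondecreasing contractions -/
theorem sq_le_of_contr {H : ℝ → ℝ} (hm : ∀ a b, a ≤ b → H a ≤ H b)
    (hl : ∀ a b, a ≤ b → H b - H a ≤ b - a) (a b : ℝ) :
    (H a - H b) ^ 2 ≤ (a - b) * (H a - H b) := by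
  rcases le_total a b with h | h
  · have h1 := hm a b h
    have h2 := hl a b h
    nlinarith
  · have h1 := hm b a h
    have h2 := hl b a h
    nlinarith

/-- the energy of `u` truncated at height `s` -/
theorem clamp_energy {R : Finset Z2} {v t : Z2 → ℝ} (hv : ∀ f ∈ R, lap v f = 0)
    (ht : ∀ f, f ∉ R → v f = t f) {s : ℝ} (hs : 0 ≤ s) (S : Finset Bnd) :
    ∑ e ∈ S, dr (fun f => clamp s (t f - v f)) e ^ 2 ≤ s * ∑ f ∈ R, |lap t f| :=
  contr_energy hv ht (clamp_of_abs (by simpa using hs))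
    (sq_le_of_contr (fun _ _ h => clamp_mono s h) (fun _ _ h => clamp_sub_le s h))
    (clamp_abs hs) S

/-! ### the cut-off of `u`: `G = 0` on `[-ω, ω]`, slope one off `[-2ω, 2ω]`, of class `C^{1,1}` -/

/-- the positive part of the cut-off -/
noncomputable def Gp (ω x : ℝ) : ℝ := (max 0 (x - ω) ^ 2 - max 0 (x - 2 * ω) ^ 2) / (2 * ω)

/-- the cut-off -/
noncomputable def G (ω x : ℝ) : ℝ := Gp ω x - Gp ω (-x)

theorem Gp_low {ω x : ℝ} (hω : 0 < ω) (h : x ≤ ω) : Gp ω x = 0 := by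
  rw [Gp, max_eq_left (by linarith), max_eq_left (by linarith)]; simp

theorem Gp_mid {ω x : ℝ} (h1 : ω ≤ x) (h2 : x ≤ 2 * ω) : Gp ω x = (x - ω) ^ 2 / (2 * ω) := by
  rw [Gp, max_eq_right (by linarith), max_eq_left (by linarith)]; ring

theorem Gp_high {ω x : ℝ} (hω : 0 < ω) (h : 2 * ω ≤ x) : Gp ω x = x - 3 / 2 * ω := by
  rw [Gp, max_eq_right (by linarith), max_eq_right (by linarith)]
  field_simp; ring

theorem G_low {ω x : ℝ} (hω : 0 < ω) (h : |x| ≤ ω) : G ω x = 0 := by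
  obtain ⟨h1, h2⟩ := abs_le.1 h
  rw [G, Gp_low hω h2, Gp_low hω (by linarith), sub_self]

/-- derivative of the positive part -/
noncomputable def Gp' (ω x : ℝ) : ℝ := (max 0 (x - ω) - max 0 (x - 2 * ω)) / ω

theorem Gp'_nonneg {ω : ℝ} (hω : 0 < ω) (x : ℝ) : 0 ≤ Gp' ω x := by
  rw [Gp']
  have : max 0 (x - 2 * ω) ≤ max 0 (x - ω) := max_le_max le_rfl (by linarith)
  have h2 : 0 ≤ max 0 (x - ω) - max 0 (x - 2 * ω) := by linarith
  positivity

theorem Gp'_le {ω : ℝ} (hω : 0 < ω) (x : ℝ) : Gp' ω x ≤ 1 := by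
  rw [Gp', div_le_one hω]
  have h1 : max 0 (x - ω) ≤ max 0 (x - 2 * ω) + ω := by
    refine max_le ?_ ?_
    · have := le_max_left 0 (x - 2 * ω); linarith
    · have := le_max_right 0 (x - 2 * ω); linarith
  linarith

theorem Gp'_lip {ω : ℝ} (hω : 0 < ω) {x y : ℝ} (h : x ≤ y) :
    |Gp' ω y - Gp' ω x| ≤ (y - x) / ω := by
  have e : Gp' ω y - Gp' ω x =
      ((max 0 (y - ω) - max 0 (x - ω)) - (max 0 (y - 2 * ω) - max 0 (x - 2 * ω))) / ω := by
    simp only [Gp']; ring
  have key : ∀ c : ℝ, 0 ≤ max 0 (y - c) - max 0 (x - c) ∧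
      max 0 (y - c) - max 0 (x - c) ≤ y - x := by
    intro c
    constructor
    · have : max 0 (x - c) ≤ max 0 (y - c) := max_le_max le_rfl (by linarith)
      linarith
    · have : max 0 (y - c) ≤ max 0 (x - c) + (y - x) := by
        refine max_le ?_ ?_
        · have := le_max_left 0 (x - c); linarith
        · have := le_max_right 0 (x - c); linarith
      linarith
  have h1 := key ω
  have h2 := key (2 * ω)
  rw [e, abs_div, abs_of_pos hω]
  refine div_le_div_of_nonneg_right ?_ hω.le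
  rw [abs_le]; constructor <;> linarith

/-- first order Taylor formula with remainder, positive part -/
theorem Gp_taylor {ω : ℝ} (hω : 0 < ω) (x y : ℝ) :
    |Gp ω y - Gp ω x - Gp' ω x * (y - x)| ≤ (y - x) ^ 2 / (2 * ω) := by
  have key : ∀ a b : ℝ, 0 ≤ max 0 b ^ 2 - max 0 a ^ 2 - 2 * max 0 a * (b - a) ∧
      max 0 b ^ 2 - max 0 a ^ 2 - 2 * max 0 a * (b - a) ≤ (b - a) ^ 2 := by
    intro a b
    rcases le_total a 0 with ha | ha <;> rcases le_total b 0 with hb | hb
    · rw [max_eq_left ha, max_eq_left hb]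
      constructor <;> nlinarith [sq_nonneg (b - a)]
    · rw [max_eq_left ha, max_eq_right hb]
      constructor <;> nlinarith [sq_nonneg (b - a), sq_nonneg b]
    · rw [max_eq_right ha, max_eq_left hb]
      constructor <;> nlinarith [sq_nonneg (b - a), sq_nonneg b, sq_nonneg a]
    · rw [max_eq_right ha, max_eq_right hb]
      constructor <;> nlinarith [sq_nonneg (b - a), sq_nonneg b, sq_nonneg a]
  have h1 := key (x - ω) (y - ω)
  have h2 := key (x - 2 * ω) (y - 2 * ω)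
  have e : Gp ω y - Gp ω x - Gp' ω x * (y - x) =
      ((max 0 (y - ω) ^ 2 - max 0 (x - ω) ^ 2 - 2 * max 0 (x - ω) * ((y - ω) - (x - ω))) -
        (max 0 (y - 2 * ω) ^ 2 - max 0 (x - 2 * ω) ^ 2 -
          2 * max 0 (x - 2 * ω) * ((y - 2 * ω) - (x - 2 * ω)))) / (2 * ω) := by
    simp only [Gp, Gp']; field_simp; ring
  have e1 : (y - ω) - (x - ω) = y - x := by ring
  have e2 : (y - 2 * ω) - (x - 2 * ω) = y - x := by ring
  rw [e1] at h1 e
  rw [e2] at h2 e
  rw [e, abs_div, abs_of_pos (by positivity : (0 : ℝ) < 2 * ω)]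
  refine div_le_div_of_nonneg_right ?_ (by positivity)
  rw [abs_le]; constructor <;> linarith

/-- derivative of the cut-off -/
noncomputable def G' (ω x : ℝ) : ℝ := Gp' ω x + Gp' ω (-x)

theorem Gp'_low {ω x : ℝ} (hω : 0 < ω) (h : x ≤ ω) : Gp' ω x = 0 := by
  rw [Gp', max_eq_left (by linarith), max_eq_left (by linarith)]; simp

theorem G'_mem {ω : ℝ} (hω : 0 < ω) (x : ℝ) : 0 ≤ G' ω x ∧ G' ω x ≤ 1 := by
  have h1 := Gp'_nonneg hω x
  have h2 := Gp'_nonneg hω (-x)
  have h3 := Gp'_le hω x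
  have h4 := Gp'_le hω (-x)
  refine ⟨by rw [G']; linarith, ?_⟩
  rw [G']
  rcases le_total x 0 with h | h
  · rw [Gp'_low hω (by linarith : x ≤ ω)]; linarith
  · rw [Gp'_low hω (by linarith : -x ≤ ω)]; linarith

theorem G_taylor {ω : ℝ} (hω : 0 < ω) (x y : ℝ) :
    |G ω y - G ω x - G' ω x * (y - x)| ≤ (y - x) ^ 2 / ω := by
  have h1 := Gp_taylor hω x y
  have h2 := Gp_taylor hω (-x) (-y)
  have e : G ω y - G ω x - G' ω x * (y - x) = (Gp ω y - Gp ω x - Gp' ω x * (y - x)) -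
      (Gp ω (-y) - Gp ω (-x) - Gp' ω (-x) * (-y - -x)) := by
    simp only [G, G']; ring
  have e2 : (-y - -x) ^ 2 / (2 * ω) = (y - x) ^ 2 / (2 * ω) := by
    congr 1; ring
  rw [e]
  calc |(Gp ω y - Gp ω x - Gp' ω x * (y - x)) -
      (Gp ω (-y) - Gp ω (-x) - Gp' ω (-x) * (-y - -x))| ≤ _ := abs_sub _ _
    _ ≤ (y - x) ^ 2 / (2 * ω) + (y - x) ^ 2 / (2 * ω) := by
        rw [e2] at h2; linarith
    _ = (y - x) ^ 2 / ω := by field_simp; ring

theorem Gp_mono {ω : ℝ} (hω : 0 < ω) {x y : ℝ} (h : x ≤ y) : Gp ω x ≤ Gp ω y := by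
  rcases le_total x ω with h1 | h1
  · rw [Gp_low hω h1]
    rcases le_total y ω with h2 | h2
    · rw [Gp_low hω h2]
    · rcases le_total y (2 * ω) with h3 | h3
      · rw [Gp_mid h2 h3]; positivity
      · rw [Gp_high hω h3]; linarith
  · rcases le_total x (2 * ω) with h2 | h2
    · rw [Gp_mid h1 h2]
      rcases le_total y (2 * ω) with h3 | h3
      · rw [Gp_mid (h1.trans h) h3]
        refine div_le_div_of_nonneg_right ?_ (by positivity)
        nlinarith
      · rw [Gp_high hω h3, div_le_iff₀ (by positivity)]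
        nlinarith
    · rw [Gp_high hω h2, Gp_high hω (h2.trans h)]; linarith

theorem Gp_sub_le {ω : ℝ} (hω : 0 < ω) {x y : ℝ} (h : x ≤ y) : Gp ω y - Gp ω x ≤ y - x := by
  rcases le_total y ω with h1 | h1
  · rw [Gp_low hω h1, Gp_low hω (h.trans h1)]; linarith
  · rcases le_total y (2 * ω) with h2 | h2
    · rw [Gp_mid h1 h2]
      rcases le_total x ω with h3 | h3
      · rw [Gp_low hω h3, sub_zero, div_le_iff₀ (by positivity)]
        nlinarith
      · rw [Gp_mid h3 (h.trans h2), ← sub_div, div_le_iff₀ (by positivity)]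
        nlinarith
    · rw [Gp_high hω h2]
      rcases le_total x ω with h3 | h3
      · rw [Gp_low hω h3]; linarith
      · rcases le_total x (2 * ω) with h4 | h4
        · rw [Gp_mid h3 h4]
          have : y - 3 / 2 * ω - (x - ω) ^ 2 / (2 * ω) - (y - x) =
              -((x - 2 * ω) ^ 2 / (2 * ω)) := by field_simp; ring
          have h5 : 0 ≤ (x - 2 * ω) ^ 2 / (2 * ω) := by positivity
          linarith
        · rw [Gp_high hω h4]; linarith

theorem G_mono {ω : ℝ} (hω : 0 < ω) {x y : ℝ} (h : x ≤ y) : G ω x ≤ G ω y := by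
  have h1 := Gp_mono hω h
  have h2 := Gp_mono hω (neg_le_neg h)
  rw [G, G]; linarith

theorem G_sub_le {ω : ℝ} (hω : 0 < ω) {x y : ℝ} (h : x ≤ y) : G ω y - G ω x ≤ y - x := by
  have key : ∀ {x y : ℝ}, x ≤ y → 0 ≤ x → G ω y - G ω x ≤ y - x := by
    intro x y h hx
    rw [G, G, Gp_low hω (by linarith : -x ≤ ω), Gp_low hω (by linarith : -y ≤ ω)]
    have := Gp_sub_le hω h
    linarith
  have key2 : ∀ {x y : ℝ}, x ≤ y → y ≤ 0 → G ω y - G ω x ≤ y - x := by
    intro x y h hy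
    rw [G, G, Gp_low hω (by linarith : x ≤ ω), Gp_low hω (by linarith : y ≤ ω)]
    have := Gp_sub_le hω (neg_le_neg h)
    linarith
  rcases le_total 0 x with h1 | h1
  · exact key h h1
  · rcases le_total y 0 with h2 | h2
    · exact key2 h h2
    · have := key h2 le_rfl
      have := key2 h1 le_rfl
      linarith

theorem G_lip {ω : ℝ} (hω : 0 < ω) (x y : ℝ) : |G ω y - G ω x| ≤ |y - x| := by
  rcases le_total x y with h | h
  · rw [abs_of_nonneg (sub_nonneg.2 (G_mono hω h)), abs_of_nonneg (sub_nonneg.2 h)]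
    exact G_sub_le hω h
  · rw [abs_sub_comm, abs_sub_comm y x, abs_of_nonneg (sub_nonneg.2 (G_mono hω h)),
      abs_of_nonneg (sub_nonneg.2 h)]
    exact G_sub_le hω h

theorem G_near {ω : ℝ} (hω : 0 < ω) (x : ℝ) : |x - G ω x| ≤ 2 * ω := by
  have key : ∀ x : ℝ, 0 ≤ x → |x - Gp ω x| ≤ 2 * ω := by
    intro x hx
    rcases le_total x ω with h1 | h1
    · rw [Gp_low hω h1, sub_zero, abs_of_nonneg hx]; linarith
    · rcases le_total x (2 * ω) with h2 | h2
      · rw [Gp_mid h1 h2]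
        have h3 : (x - ω) ^ 2 / (2 * ω) ≤ ω / 2 := by
          rw [div_le_iff₀ (by positivity)]; nlinarith
        have h4 : 0 ≤ (x - ω) ^ 2 / (2 * ω) := by positivity
        rw [abs_le]; constructor <;> linarith
      · rw [Gp_high hω h2, abs_le]; constructor <;> linarith
  rcases le_total 0 x with h | h
  · rw [G, Gp_low hω (by linarith : -x ≤ ω), sub_zero]; exact key x h
  · have := key (-x) (by linarith)
    rw [G, Gp_low hω (by linarith : x ≤ ω), zero_sub, ← abs_neg]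
    have e : -(x - -Gp ω (-x)) = -x - Gp ω (-x) := by ring
    rw [e]; exact this

/-- **(P2)**: `φ = G u` is close to `u` in energy -/
theorem cut_energy {R : Finset Z2} {v t : Z2 → ℝ} (hv : ∀ f ∈ R, lap v f = 0)
    (ht : ∀ f, f ∉ R → v f = t f) {ω : ℝ} (hω : 0 < ω) (S : Finset Bnd) :
    ∑ e ∈ S, (dr (fun f => t f - v f) e - dr (fun f => G ω (t f - v f)) e) ^ 2 ≤
      2 * ω * ∑ f ∈ R, |lap t f| := by
  have h := contr_energy hv ht (H := fun x => x - G ω x) (ω := 2 * ω)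
    (by simp [G_low hω (x := 0) (by simpa using hω.le)])
    (sq_le_of_contr (fun a b h => by have := G_sub_le hω h; linarith)
      (fun a b h => by have := G_mono hω h; linarith)) (G_near hω) S
  refine le_trans (le_of_eq ?_) h
  refine Finset.sum_congr rfl fun e _ => ?_
  simp only [dr]; ring

/-- second differences of `G u` -/
theorem G_second {ω : ℝ} (hω : 0 < ω) (a b c d : ℝ) {M : ℝ} (hb : |b - a| ≤ M) (hc : |c - a| ≤ M)
    (hd : |d - a| ≤ 2 * M) :
    |G ω d - G ω b - G ω c + G ω a| ≤ |d - b - c + a| + 6 * M ^ 2 / ω := by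
  have h1 := G_taylor hω a b
  have h2 := G_taylor hω a c
  have h3 := G_taylor hω a d
  obtain ⟨g0, g1⟩ := G'_mem hω a
  have e : G ω d - G ω b - G ω c + G ω a = G' ω a * (d - b - c + a) +
      ((G ω d - G ω a - G' ω a * (d - a)) - (G ω b - G ω a - G' ω a * (b - a)) -
        (G ω c - G ω a - G' ω a * (c - a))) := by ring
  have hM : 0 ≤ M := (abs_nonneg _).trans hb
  have s1 : (b - a) ^ 2 / ω ≤ M ^ 2 / ω := by
    refine div_le_div_of_nonneg_right ?_ hω.le
    rw [← sq_abs]; exact pow_le_pow_left₀ (abs_nonneg _) hb 2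
  have s2 : (c - a) ^ 2 / ω ≤ M ^ 2 / ω := by
    refine div_le_div_of_nonneg_right ?_ hω.le
    rw [← sq_abs]; exact pow_le_pow_left₀ (abs_nonneg _) hc 2
  have s3 : (d - a) ^ 2 / ω ≤ (2 * M) ^ 2 / ω := by
    refine div_le_div_of_nonneg_right ?_ hω.le
    rw [← sq_abs]; exact pow_le_pow_left₀ (abs_nonneg _) hd 2
  have e6 : M ^ 2 / ω + M ^ 2 / ω + (2 * M) ^ 2 / ω = 6 * M ^ 2 / ω := by ring
  have h4 : |G' ω a * (d - b - c + a)| ≤ |d - b - c + a| := by
    rw [abs_mul, abs_of_nonneg g0]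
    exact mul_le_of_le_one_left (abs_nonneg _) g1
  rw [e]
  refine (abs_add_le _ _).trans ?_
  refine add_le_add h4 ?_
  refine (abs_sub _ _).trans ?_
  have h5 := abs_sub (G ω d - G ω a - G' ω a * (d - a)) (G ω b - G ω a - G' ω a * (b - a))
  linarith

end Vale.Agent.P159.T1.S.H376
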