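import Vale.Agent.P159.T1.S.H376.En

/-! # P159, T1, stage 2: a smooth cut-off on the lattice -/

open Finset
open Vale.Agent.P159.T1.D
open Vale.Agent.P159.T1.H775

namespace Vale.Agent.P159.T1.S.H376

/-- `C^{1,1}` step: `0` for `y ≤ 0`, `1` for `y ≥ 1` -/
noncomputable def st (y : ℝ) : ℝ := 2 * (Gp (1 / 2) (y + 1 / 2) - Gp (1 / 2) y)

theorem half_pos' : (0 : ℝ) < 1 / 2 := by norm_num

theorem st_low {y : ℝ} (h : y ≤ 0) : st y = 0 := by
  rw [st, Gp_low half_pos' (by linarith), Gp_low half_pos' (by linarith)]; ring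

theorem st_high {y : ℝ} (h : 1 ≤ y) : st y = 1 := by
  rw [st, Gp_high half_pos' (by linarith), Gp_high half_pos' (by linarith)]; ring

theorem st_mem (y : ℝ) : 0 ≤ st y ∧ st y ≤ 1 := by
  have h1 := Gp_mono half_pos' (show y ≤ y + 1 / 2 by linarith)
  have h2 := Gp_sub_le half_pos' (show y ≤ y + 1 / 2 by linarith)
  rw [st]; constructor <;> linarith

theorem st_lip (x y : ℝ) : |st y - st x| ≤ 2 * |y - x| := by
  have key : ∀ {x y : ℝ}, x ≤ y → |st y - st x| ≤ 2 * (y - x) := by
    intro x y h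
    have h1 := Gp_mono half_pos' h
    have h2 := Gp_sub_le half_pos' h
    have h3 := Gp_mono half_pos' (show x + 1 / 2 ≤ y + 1 / 2 by linarith)
    have h4 := Gp_sub_le half_pos' (show x + 1 / 2 ≤ y + 1 / 2 by linarith)
    rw [st, st, abs_le]; constructor <;> linarith
  rcases le_total x y with h | h
  · rw [abs_of_nonneg (sub_nonneg.2 h)]; exact key h
  · rw [abs_sub_comm, abs_sub_comm y x, abs_of_nonneg (sub_nonneg.2 h)]; exact key h

theorem Gp_second (a h : ℝ) :
    |Gp (1 / 2) (a + 2 * h) - 2 * Gp (1 / 2) (a + h) + Gp (1 / 2) a| ≤ 2 * h ^ 2 := by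
  have h1 := Gp_taylor half_pos' (a + h) (a + 2 * h)
  have h2 := Gp_taylor half_pos' (a + h) a
  have e1 : (a + 2 * h - (a + h)) ^ 2 / (2 * (1 / 2)) = h ^ 2 := by ring
  have e2 : (a - (a + h)) ^ 2 / (2 * (1 / 2)) = h ^ 2 := by ring
  rw [e1] at h1
  rw [e2] at h2
  have e : Gp (1 / 2) (a + 2 * h) - 2 * Gp (1 / 2) (a + h) + Gp (1 / 2) a =
      (Gp (1 / 2) (a + 2 * h) - Gp (1 / 2) (a + h) - Gp' (1 / 2) (a + h) * (a + 2 * h - (a + h))) +
      (Gp (1 / 2) a - Gp (1 / 2) (a + h) - Gp' (1 / 2) (a + h) * (a - (a + h))) := by ring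
  rw [e]
  exact (abs_add_le _ _).trans (by linarith)

theorem st_second (a h : ℝ) : |st (a + 2 * h) - 2 * st (a + h) + st a| ≤ 8 * h ^ 2 := by
  have h1 := abs_le.1 (Gp_second a h)
  have h2 := abs_le.1 (Gp_second (a + 1 / 2) h)
  have e1 : a + 2 * h + 1 / 2 = a + 1 / 2 + 2 * h := by ring
  have e2 : a + h + 1 / 2 = a + 1 / 2 + h := by ring
  simp only [st, e1, e2]
  rw [abs_le]; constructor <;> linarith [h1.1, h1.2, h2.1, h2.2]

/-- the one dimensional cut-off: `1` for `|x - c| h ≤ 3`, `0` for `|x - c| h ≥ 4` -/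
noncomputable def gc (c h x : ℝ) : ℝ := 1 - st ((x - c) * h - 3) - st ((c - x) * h - 3)

theorem gc_mem {c h x : ℝ} (hh : 0 ≤ h) : 0 ≤ gc c h x ∧ gc c h x ≤ 1 := by
  have h1 := st_mem ((x - c) * h - 3)
  have h2 := st_mem ((c - x) * h - 3)
  rw [gc]
  refine ⟨?_, by linarith⟩
  rcases le_total x c with hx | hx
  · rw [st_low (y := (x - c) * h - 3) (by nlinarith)]; linarith
  · rw [st_low (y := (c - x) * h - 3) (by nlinarith)]; linarith

theorem gc_one {c h x : ℝ} (hh : 0 ≤ h) (hx : |x - c| * h ≤ 3) : gc c h x = 1 := by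
  have h1 := mul_le_mul_of_nonneg_right (le_abs_self (x - c)) hh
  have h2 := mul_le_mul_of_nonneg_right (neg_abs_le (x - c)) hh
  rw [gc, st_low (y := (x - c) * h - 3) (by linarith),
    st_low (y := (c - x) * h - 3) (by nlinarith)]
  ring

theorem gc_zero {c h x : ℝ} (hh : 0 ≤ h) (hx : 4 ≤ |x - c| * h) : gc c h x = 0 := by
  rcases le_total x c with hc | hc
  · rw [abs_of_nonpos (by linarith)] at hx
    rw [gc, st_low (y := (x - c) * h - 3) (by nlinarith),
      st_high (y := (c - x) * h - 3) (by nlinarith)]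
    ring
  · rw [abs_of_nonneg (by linarith)] at hx
    rw [gc, st_high (y := (x - c) * h - 3) (by nlinarith),
      st_low (y := (c - x) * h - 3) (by nlinarith)]
    ring

theorem gc_first {c h x : ℝ} (hh : 0 ≤ h) : |gc c h (x + 1) - gc c h x| ≤ 4 * h := by
  have h1 := st_lip ((x - c) * h - 3) ((x + 1 - c) * h - 3)
  have h2 := st_lip ((c - x) * h - 3) ((c - (x + 1)) * h - 3)
  have e1 : (x + 1 - c) * h - 3 - ((x - c) * h - 3) = h := by ring
  have e2 : (c - (x + 1)) * h - 3 - ((c - x) * h - 3) = -h := by ring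
  rw [e1, abs_of_nonneg hh] at h1
  rw [e2, abs_neg, abs_of_nonneg hh] at h2
  have h3 := abs_le.1 h1
  have h4 := abs_le.1 h2
  rw [gc, gc, abs_le]; constructor <;> linarith [h3.1, h3.2, h4.1, h4.2]

theorem gc_second (c h x : ℝ) :
    |gc c h (x + 1 + 1) - gc c h (x + 1) - (gc c h (x + 1) - gc c h x)| ≤ 16 * h ^ 2 := by
  have h1 := st_second ((x - c) * h - 3) h
  have h2 := st_second ((c - x) * h - 3) (-h)
  have e1 : (x + 1 + 1 - c) * h - 3 = (x - c) * h - 3 + 2 * h := by ring
  have e2 : (x + 1 - c) * h - 3 = (x - c) * h - 3 + h := by ring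
  have e3 : (c - (x + 1 + 1)) * h - 3 = (c - x) * h - 3 + 2 * (-h) := by ring
  have e4 : (c - (x + 1)) * h - 3 = (c - x) * h - 3 + -h := by ring
  have h3 := abs_le.1 h1
  have h4 := abs_le.1 h2
  rw [neg_sq] at h4
  simp only [gc, e1, e2, e3, e4]
  rw [abs_le]; constructor <;> linarith [h3.1, h3.2, h4.1, h4.2]

/-- functions with values in `[0,1]` and bounded first and second differences -/
structure Bd (β γ : ℝ) (a : Z2 → ℝ) : Prop where
  mem : ∀ f, 0 ≤ a f ∧ a f ≤ 1
  fst : ∀ f d, |a (stp d f) - a f| ≤ β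
  snd : ∀ f d d', |a (stp d (stp d' f)) - a (stp d' f) - (a (stp d f) - a f)| ≤ γ

theorem stp_comm (d d' : Bool) (f : Z2) : stp d (stp d' f) = stp d' (stp d f) := by
  cases d <;> cases d' <;> simp [stp]

theorem Bd.compl {β γ : ℝ} {a : Z2 → ℝ} (h : Bd β γ a) : Bd β γ fun f => 1 - a f where
  mem f := by have := h.mem f; constructor <;> linarith
  fst f d := by
    have := h.fst f d
    rw [← abs_neg]
    have e : -(1 - a (stp d f) - (1 - a f)) = a (stp d f) - a f := by ring
    rwa [e]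
  snd f d d' := by
    have := h.snd f d d'
    rw [← abs_neg]
    have e : -(1 - a (stp d (stp d' f)) - (1 - a (stp d' f)) - (1 - a (stp d f) - (1 - a f))) =
      a (stp d (stp d' f)) - a (stp d' f) - (a (stp d f) - a f) := by ring
    rwa [e]

/-- second difference of a product -/
theorem prod_second (a00 a10 a01 a11 b00 b10 b01 b11 : ℝ) :
    a11 * b11 - a01 * b01 - (a10 * b10 - a00 * b00) =
      (a11 - a01 - (a10 - a00)) * b11 + a00 * (b11 - b01 - (b10 - b00)) +
        (a01 - a00) * (b11 - b01) + (a10 - a00) * (b11 - b10) := by ring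

theorem Bd.mul {β γ β' γ' : ℝ} {a b : Z2 → ℝ} (ha : Bd β γ a) (hb : Bd β' γ' b) :
    Bd (β + β') (γ + γ' + 2 * (β * β')) fun f => a f * b f where
  mem f := by
    have h1 := ha.mem f
    have h2 := hb.mem f
    exact ⟨mul_nonneg h1.1 h2.1, mul_le_one₀ h1.2 h2.1 h2.2⟩
  fst f d := by
    have h1 := ha.fst f d
    have h2 := hb.fst f d
    have h3 := hb.mem (stp d f)
    have h4 := ha.mem f
    have e : a (stp d f) * b (stp d f) - a f * b f =
      (a (stp d f) - a f) * b (stp d f) + a f * (b (stp d f) - b f) := by ring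
    rw [e]
    refine (abs_add_le _ _).trans (add_le_add ?_ ?_)
    · rw [abs_mul, abs_of_nonneg h3.1]
      calc _ ≤ |a (stp d f) - a f| * 1 := mul_le_mul_of_nonneg_left h3.2 (abs_nonneg _)
        _ ≤ β := by rw [mul_one]; exact h1
    · rw [abs_mul, abs_of_nonneg h4.1]
      calc _ ≤ 1 * |b (stp d f) - b f| := mul_le_mul_of_nonneg_right h4.2 (abs_nonneg _)
        _ ≤ β' := by rw [one_mul]; exact h2
  snd f d d' := by
    have h1 := ha.snd f d d'
    have h2 := hb.snd f d d'
    have h3 := hb.mem (stp d (stp d' f))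
    have h4 := ha.mem f
    have h5 := ha.fst f d'
    have h6 := hb.fst (stp d' f) d
    have h7 := ha.fst f d
    have h8 := hb.fst (stp d f) d'
    rw [stp_comm d' d f] at h8
    rw [prod_second]
    have k1 : |(a (stp d (stp d' f)) - a (stp d' f) - (a (stp d f) - a f)) *
        b (stp d (stp d' f))| ≤ γ := by
      rw [abs_mul, abs_of_nonneg h3.1]
      calc _ ≤ |a (stp d (stp d' f)) - a (stp d' f) - (a (stp d f) - a f)| * 1 :=
            mul_le_mul_of_nonneg_left h3.2 (abs_nonneg _)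
        _ ≤ γ := by rw [mul_one]; exact h1
    have k2 : |a f * (b (stp d (stp d' f)) - b (stp d' f) - (b (stp d f) - b f))| ≤ γ' := by
      rw [abs_mul, abs_of_nonneg h4.1]
      calc _ ≤ 1 * |b (stp d (stp d' f)) - b (stp d' f) - (b (stp d f) - b f)| :=
            mul_le_mul_of_nonneg_right h4.2 (abs_nonneg _)
        _ ≤ γ' := by rw [one_mul]; exact h2
    have hβ : 0 ≤ β := (abs_nonneg _).trans h5
    have hβ' : 0 ≤ β' := (abs_nonneg _).trans h6
    have k3 : |(a (stp d' f) - a f) * (b (stp d (stp d' f)) - b (stp d' f))| ≤ β * β' := by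
      rw [abs_mul]; exact mul_le_mul h5 h6 (abs_nonneg _) hβ
    have k4 : |(a (stp d f) - a f) * (b (stp d (stp d' f)) - b (stp d f))| ≤ β * β' := by
      rw [abs_mul]; exact mul_le_mul h7 h8 (abs_nonneg _) hβ
    refine (abs_add_le _ _).trans ?_
    refine (add_le_add ((abs_add_le _ _).trans (add_le_add ((abs_add_le _ _).trans
      (add_le_add k1 k2)) k3)) k4).trans (le_of_eq ?_)
    ring

theorem bd_fst {c h : ℝ} (hh : 0 ≤ h) : Bd (4 * h) (16 * h ^ 2) fun f => gc c h f.1 where
  mem f := gc_mem hh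
  fst f d := by
    cases d
    · simp only [stp, Bool.false_eq_true, if_false]
      push_cast
      exact gc_first hh
    · simp only [stp, if_true, sub_self, abs_zero]; positivity
  snd f d d' := by
    cases d <;> cases d'
    · simp only [stp, Bool.false_eq_true, if_false]
      push_cast
      exact gc_second c h f.1
    · simp only [stp, Bool.false_eq_true, if_false, if_true, sub_self, abs_zero]; positivity
    · simp only [stp, Bool.false_eq_true, if_false, if_true, sub_self, abs_zero]; positivity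
    · simp only [stp, if_true, sub_self, abs_zero]; positivity

theorem bd_snd {c h : ℝ} (hh : 0 ≤ h) : Bd (4 * h) (16 * h ^ 2) fun f => gc c h f.2 where
  mem f := gc_mem hh
  fst f d := by
    cases d
    · simp only [stp, Bool.false_eq_true, if_false, sub_self, abs_zero]; positivity
    · simp only [stp, if_true]
      push_cast
      exact gc_first hh
  snd f d d' := by
    cases d <;> cases d'
    · simp only [stp, Bool.false_eq_true, if_false, sub_self, abs_zero]; positivity
    · simp only [stp, Bool.false_eq_true, if_false, if_true, sub_self, abs_zero]; positivity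
    · simp only [stp, Bool.false_eq_true, if_false, if_true, sub_self, abs_zero]; positivity
    · simp only [stp, if_true]
      push_cast
      exact gc_second c h f.2

/-- the cut-off near one tip -/
noncomputable def c1f (c h : ℝ) (f : Z2) : ℝ := gc c h f.1 * gc 0 h f.2

/-- the cut-off near both tips -/
noncomputable def chf (c h : ℝ) (f : Z2) : ℝ := 1 - (1 - c1f 0 h f) * (1 - c1f c h f)

theorem bd_c1f {c h : ℝ} (hh : 0 ≤ h) : Bd (8 * h) (64 * h ^ 2) (c1f c h) := by
  have h1 := (bd_fst (c := c) hh).mul (bd_snd (c := 0) hh)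
  have e1 : 4 * h + 4 * h = 8 * h := by ring
  have e2 : 16 * h ^ 2 + 16 * h ^ 2 + 2 * (4 * h * (4 * h)) = 64 * h ^ 2 := by ring
  rw [e1, e2] at h1
  exact h1

theorem bd_chf {c h : ℝ} (hh : 0 ≤ h) : Bd (16 * h) (256 * h ^ 2) (chf c h) := by
  have h1 := ((bd_c1f (c := 0) hh).compl.mul (bd_c1f (c := c) hh).compl).compl
  have e1 : 8 * h + 8 * h = 16 * h := by ring
  have e2 : 64 * h ^ 2 + 64 * h ^ 2 + 2 * (8 * h * (8 * h)) = 256 * h ^ 2 := by ring
  rw [e1, e2] at h1
  exact h1

end Vale.Agent.P159.T1.S.H376
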