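import Vale.Agent.P159.T1.S.Stmts
import Mathlib.NumberTheory.Harmonic.Bounds

/-! # P159, T1, stage 2: sums of `(1 + |f|)⁻²` -/

open Finset
open Vale.Agent.P159.T1.D

namespace Vale.Agent.P159.T1.S.H376

/-- the faces with sup norm `k` -/
theorem card_shell (T : Finset Z2) (k : ℕ) : ((T.filter fun f => nm f = k).card : ℝ) ≤
    8 * (k + 1) := by
  classical
  have hsub : (T.filter fun f => nm f = k) ⊆
      (({(k : ℤ), -(k : ℤ)} : Finset ℤ) ×ˢ Finset.Icc (-(k : ℤ)) k) ∪
      (Finset.Icc (-(k : ℤ)) k ×ˢ ({(k : ℤ), -(k : ℤ)} : Finset ℤ)) := by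
    intro f hf
    have h := (Finset.mem_filter.1 hf).2
    simp only [nm] at h
    simp only [Finset.mem_union, Finset.mem_product, Finset.mem_insert, Finset.mem_singleton,
      Finset.mem_Icc]
    rcases max_choice f.1.natAbs f.2.natAbs with h1 | h1
    · left; omega
    · right; omega
  have h1 : (T.filter fun f => nm f = k).card ≤ 2 * (2 * k + 1) + (2 * k + 1) * 2 := by
    refine (Finset.card_le_card hsub).trans ((Finset.card_union_le _ _).trans ?_)
    rw [Finset.card_product, Finset.card_product, Int.card_Icc]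
    have e : ((k : ℤ) + 1 - -(k : ℤ)).toNat = 2 * k + 1 := by omega
    rw [e]
    have h2 : (({(k : ℤ), -(k : ℤ)} : Finset ℤ)).card ≤ 2 := Finset.card_le_two
    exact Nat.add_le_add (Nat.mul_le_mul_right _ h2) (Nat.mul_le_mul_left _ h2)
  have h2 : ((T.filter fun f => nm f = k).card : ℝ) ≤
      ((2 * (2 * k + 1) + (2 * k + 1) * 2 : ℕ) : ℝ) := by exact_mod_cast h1
  push_cast at h2
  linarith

/-- sum over any finite set of faces of norm at most `N` -/
theorem sum_nm_le (T : Finset Z2) (N : ℕ) (hT : ∀ f ∈ T, nm f ≤ N) :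
    ∑ f ∈ T, 1 / (1 + nm f : ℝ) ^ 2 ≤ 8 * (1 + Real.log (N + 1)) := by
  classical
  have h1 : ∑ f ∈ T, 1 / (1 + nm f : ℝ) ^ 2 =
      ∑ k ∈ Finset.range (N + 1), ∑ f ∈ T.filter (fun f => nm f = k), 1 / (1 + nm f : ℝ) ^ 2 :=
    (Finset.sum_fiberwise_of_maps_to (fun f hf => by
      have := hT f hf; simp; omega) _).symm
  have h2 : ∀ k ∈ Finset.range (N + 1),
      ∑ f ∈ T.filter (fun f => nm f = k), 1 / (1 + nm f : ℝ) ^ 2 ≤ 8 * (1 / ((k : ℝ) + 1)) := by
    intro k _
    have h3 : ∀ f ∈ T.filter (fun f => nm f = k), 1 / (1 + nm f : ℝ) ^ 2 =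
        1 / (1 + (k : ℝ)) ^ 2 := by
      intro f hf
      rw [(Finset.mem_filter.1 hf).2]
    rw [Finset.sum_congr rfl h3, Finset.sum_const, nsmul_eq_mul]
    calc _ ≤ 8 * ((k : ℝ) + 1) * (1 / (1 + (k : ℝ)) ^ 2) :=
          mul_le_mul_of_nonneg_right (card_shell T k) (by positivity)
      _ = 8 * (1 / ((k : ℝ) + 1)) := by field_simp; ring
  rw [h1]
  refine (Finset.sum_le_sum h2).trans ?_
  rw [← Finset.mul_sum]
  have h4 := harmonic_le_one_add_log (N + 1)
  rw [harmonic] at h4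
  push_cast at h4
  have h5 : ∑ k ∈ Finset.range (N + 1), 1 / ((k : ℝ) + 1) =
      ∑ i ∈ Finset.range (N + 1), ((i : ℝ) + 1)⁻¹ := by
    refine Finset.sum_congr rfl fun k _ => ?_
    rw [one_div]
  rw [h5]
  linarith

theorem mir_inj (r : ℕ) : Function.Injective (mir r) := by
  intro f g h
  simp only [mir, Prod.mk.injEq] at h
  exact Prod.ext (by omega) h.2

/-- the same for the distance to the nearer tip -/
theorem sum_ns_le (T : Finset Z2) (r N : ℕ) (hT : ∀ f ∈ T, ns r f ≤ N) :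
    ∑ f ∈ T, 1 / (1 + ns r f : ℝ) ^ 2 ≤ 16 * (1 + Real.log (N + 1)) := by
  classical
  have h1 : ∀ f : Z2, 1 / (1 + ns r f : ℝ) ^ 2 ≤ (if nm f ≤ N ∨ ¬ (ns r f ≤ N) then
      1 / (1 + nm f : ℝ) ^ 2 else 0) + (if nm (mir r f) ≤ N ∨ ¬ (ns r f ≤ N) then
      1 / (1 + nm (mir r f) : ℝ) ^ 2 else 0) := by
    intro f
    rcases min_choice (nm f) (nm (mir r f)) with h | h
    · have e : ns r f = nm f := h
      rw [e]
      have : nm f ≤ N ∨ ¬ (nm f ≤ N) := em _
      rw [if_pos this]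
      have h2 : 0 ≤ (if nm (mir r f) ≤ N ∨ ¬ (nm f ≤ N) then
        1 / (1 + nm (mir r f) : ℝ) ^ 2 else 0) := by split_ifs <;> positivity
      linarith
    · have e : ns r f = nm (mir r f) := h
      rw [e]
      have : nm (mir r f) ≤ N ∨ ¬ (nm (mir r f) ≤ N) := em _
      rw [if_pos this]
      have h2 : 0 ≤ (if nm f ≤ N ∨ ¬ (nm (mir r f) ≤ N) then
        1 / (1 + nm f : ℝ) ^ 2 else 0) := by split_ifs <;> positivity
      linarith
  calc ∑ f ∈ T, 1 / (1 + ns r f : ℝ) ^ 2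
      ≤ ∑ f ∈ T, ((if nm f ≤ N then 1 / (1 + nm f : ℝ) ^ 2 else 0) +
          (if nm (mir r f) ≤ N then 1 / (1 + nm (mir r f) : ℝ) ^ 2 else 0)) := by
        refine Finset.sum_le_sum fun f hf => (h1 f).trans (le_of_eq ?_)
        have := hT f hf
        simp [this]
    _ = ∑ f ∈ T.filter (fun f => nm f ≤ N), 1 / (1 + nm f : ℝ) ^ 2 +
          ∑ f ∈ (T.filter (fun f => nm (mir r f) ≤ N)).image (mir r), 1 / (1 + nm f : ℝ) ^ 2 := by
        rw [Finset.sum_add_distrib, Finset.sum_filter, Finset.sum_image, Finset.sum_filter]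
        exact fun a _ b _ h => mir_inj r h
    _ ≤ 8 * (1 + Real.log (N + 1)) + 8 * (1 + Real.log (N + 1)) := by
        refine add_le_add (sum_nm_le _ N fun f hf => (Finset.mem_filter.1 hf).2)
          (sum_nm_le _ N fun f hf => ?_)
        obtain ⟨g, hg, rfl⟩ := Finset.mem_image.1 hf
        exact (Finset.mem_filter.1 hg).2
    _ = 16 * (1 + Real.log (N + 1)) := by ring

/-- the number of faces with `ns ≤ N` -/
theorem card_ns_le (T : Finset Z2) (r N : ℕ) (hT : ∀ f ∈ T, ns r f ≤ N) :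
    (T.card : ℝ) ≤ 2 * (2 * N + 1) ^ 2 := by
  classical
  have hb : ∀ T' : Finset Z2, (∀ f ∈ T', nm f ≤ N) → T'.card ≤ (2 * N + 1) ^ 2 := by
    intro T' h
    have hsub : T' ⊆ Finset.Icc (-(N : ℤ)) N ×ˢ Finset.Icc (-(N : ℤ)) N := by
      intro f hf
      have := h f hf
      simp only [nm] at this
      simp only [Finset.mem_product, Finset.mem_Icc]
      have h1 := le_max_left f.1.natAbs f.2.natAbs
      have h2 := le_max_right f.1.natAbs f.2.natAbs
      omega
    refine (Finset.card_le_card hsub).trans (le_of_eq ?_)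
    rw [Finset.card_product, Int.card_Icc]
    have e : ((N : ℤ) + 1 - -(N : ℤ)).toNat = 2 * N + 1 := by omega
    rw [e]; ring
  have hsplit : T ⊆ T.filter (fun f => nm f ≤ N) ∪ T.filter (fun f => nm (mir r f) ≤ N) := by
    intro f hf
    have := hT f hf
    simp only [ns, min_le_iff] at this
    simp only [Finset.mem_union, Finset.mem_filter]
    rcases this with h | h
    · exact Or.inl ⟨hf, h⟩
    · exact Or.inr ⟨hf, h⟩
  have h1 : (T.filter (fun f => nm f ≤ N)).card ≤ (2 * N + 1) ^ 2 :=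
    hb _ fun f hf => (Finset.mem_filter.1 hf).2
  have h2 : (T.filter (fun f => nm (mir r f) ≤ N)).card ≤ (2 * N + 1) ^ 2 := by
    rw [← Finset.card_image_of_injective _ (mir_inj r)]
    refine hb _ fun f hf => ?_
    obtain ⟨g, hg, rfl⟩ := Finset.mem_image.1 hf
    exact (Finset.mem_filter.1 hg).2
  have h3 : T.card ≤ 2 * (2 * N + 1) ^ 2 := by
    refine (Finset.card_le_card hsplit).trans ((Finset.card_union_le _ _).trans ?_)
    omega
  exact_mod_cast h3

end Vale.Agent.P159.T1.S.H376
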