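import Vale.Agent.P159.T1.S.H376.Osc
import Vale.Agent.P159.T1.S.H376.Step
import Vale.Agent.P159.T1.S.H376.Sums

/-! # P159, T1, stage 2: row StmtPhi from StmtCL -/

open Finset
open Vale.Agent.P159.T1.D
open Vale.Agent.P159.T1.H775

namespace Vale.Agent.P159.T1.S.H376

/-! ### the sup norm -/

theorem abs_fst_le (f : Z2) : |(f.1 : ℝ)| ≤ nm f := by
  have : |f.1| ≤ (nm f : ℤ) := by
    rw [Int.abs_eq_natAbs]; exact_mod_cast le_max_left _ _
  exact_mod_cast this

theorem abs_snd_le (f : Z2) : |(f.2 : ℝ)| ≤ nm f := by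
  have : |f.2| ≤ (nm f : ℤ) := by
    rw [Int.abs_eq_natAbs]; exact_mod_cast le_max_right _ _
  exact_mod_cast this

theorem nm_le_of {f : Z2} {X : ℝ} (h1 : |(f.1 : ℝ)| ≤ X) (h2 : |(f.2 : ℝ)| ≤ X) :
    (nm f : ℝ) ≤ X := by
  rcases max_choice f.1.natAbs f.2.natAbs with h | h
  · have e : nm f = f.1.natAbs := h
    rw [e, Nat.cast_natAbs, Int.cast_abs]; exact h1
  · have e : nm f = f.2.natAbs := h
    rw [e, Nat.cast_natAbs, Int.cast_abs]; exact h2

theorem nm_lip {f g : Z2} {k : ℕ} (h : InBox f k g) : nm f ≤ nm g + k := by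
  obtain ⟨h1, h2⟩ := h
  rw [abs_le] at h1 h2
  simp only [nm]
  omega

theorem inBox_mir {f g : Z2} {k : ℕ} (r : ℕ) (h : InBox f k g) : InBox (mir r f) k (mir r g) := by
  obtain ⟨h1, h2⟩ := h
  rw [abs_le] at h1 h2
  constructor <;> simp only [mir] <;> rw [abs_le] <;> constructor <;> omega

theorem ns_lip {f g : Z2} {k : ℕ} (r : ℕ) (h : InBox f k g) : ns r f ≤ ns r g + k := by
  have h1 := nm_lip h
  have h2 := nm_lip (inBox_mir r h)
  simp only [ns]
  omega

theorem InBox.symm' {f g : Z2} {k : ℕ} (h : InBox f k g) : InBox g k f := by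
  obtain ⟨h1, h2⟩ := h
  exact ⟨by rwa [abs_sub_comm] at h1, by rwa [abs_sub_comm] at h2⟩

theorem inBox_stp (d : Bool) (f : Z2) : InBox f 1 (stp d f) := by
  cases d <;> simp [stp, InBox]

theorem inBox_self (f : Z2) (k : ℕ) : InBox f k f := by simp [InBox]

theorem ns_stp (r : ℕ) (d : Bool) (f : Z2) : ns r (stp d f) ≤ ns r f + 1 ∧
    ns r f ≤ ns r (stp d f) + 1 :=
  ⟨ns_lip r (InBox.symm' (inBox_stp d f)), ns_lip r (inBox_stp d f)⟩

theorem inBox_bond (e : Bnd) : InBox (lf e) 1 (rt e) := by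
  obtain ⟨⟨i, j⟩, d⟩ := e
  cases d <;> simp [lf, rt, InBox]

theorem ns_bond (r : ℕ) (e : Bnd) : ns r (lf e) ≤ ns r (rt e) + 1 ∧ ns r (rt e) ≤ ns r (lf e) + 1 :=
  ⟨ns_lip r (inBox_bond e), ns_lip r (InBox.symm' (inBox_bond e))⟩

/-- there is a slit face near `f` -/
theorem near_slit (r : ℕ) (f : Z2) : ∃ g ∈ slit r, |((g.1 - f.1 : ℤ) : ℝ)| ≤ ns r f + 1 ∧
    |((g.2 - f.2 : ℤ) : ℝ)| ≤ ns r f + 1 := by
  rcases min_choice (nm f) (nm (mir r f)) with h | h
  · have e : ns r f = nm f := h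
    refine ⟨(-1, -1), ⟨rfl, Or.inl (by norm_num)⟩, ?_, ?_⟩
    · have h1 := abs_le.1 (abs_fst_le f)
      rw [e]; push_cast; rw [abs_le]; constructor <;> linarith [h1.1, h1.2]
    · have h1 := abs_le.1 (abs_snd_le f)
      rw [e]; push_cast; rw [abs_le]; constructor <;> linarith [h1.1, h1.2]
  · have e : ns r f = nm (mir r f) := h
    refine ⟨((r : ℤ), -1), ⟨rfl, Or.inr le_rfl⟩, ?_, ?_⟩
    · have h1 := abs_le.1 (abs_fst_le (mir r f))
      have h2 : ((mir r f).1 : ℝ) = (r : ℝ) - 1 - f.1 := by simp [mir]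
      rw [h2] at h1
      rw [e]; push_cast; rw [abs_le]; constructor <;> linarith [h1.1, h1.2]
    · have h1 := abs_le.1 (abs_snd_le (mir r f))
      have h2 : ((mir r f).2 : ℝ) = f.2 := by simp [mir]
      rw [h2] at h1
      rw [e]; push_cast; rw [abs_le]; constructor <;> linarith [h1.1, h1.2]

/-! ### the cut-off -/

theorem chf_one {r : ℕ} {h : ℝ} (hh : 0 ≤ h) {f : Z2} (hf : ns r f * h ≤ 3) :
    chf ((r : ℝ) - 1) h f = 1 := by
  rcases min_choice (nm f) (nm (mir r f)) with h1 | h1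
  · have e : ns r f = nm f := h1
    rw [e] at hf
    have a1 := mul_le_mul_of_nonneg_right (abs_fst_le f) hh
    have a2 := mul_le_mul_of_nonneg_right (abs_snd_le f) hh
    rw [chf, c1f, gc_one hh (by rw [sub_zero]; linarith), gc_one hh (by rw [sub_zero]; linarith)]
    ring
  · have e : ns r f = nm (mir r f) := h1
    rw [e] at hf
    have a1 := mul_le_mul_of_nonneg_right (abs_fst_le (mir r f)) hh
    have a2 := mul_le_mul_of_nonneg_right (abs_snd_le (mir r f)) hh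
    have e1 : |((mir r f).1 : ℝ)| = |(f.1 : ℝ) - ((r : ℝ) - 1)| := by
      simp only [mir]; push_cast; rw [abs_sub_comm]
    rw [e1] at a1
    have e2 : c1f ((r : ℝ) - 1) h f = 1 := by
      rw [c1f, gc_one hh (by linarith), gc_one hh (by
        rw [sub_zero]; exact a2.trans hf)]
      ring
    rw [chf, e2]; ring

theorem chf_supp {r : ℕ} {h : ℝ} (hh : 0 ≤ h) {f : Z2} (hf : chf ((r : ℝ) - 1) h f ≠ 0) :
    ns r f * h < 4 := by
  by_contra hc
  push Not at hc
  apply hf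
  have h1 : (4 : ℝ) ≤ nm f * h := hc.trans (mul_le_mul_of_nonneg_right
    (by exact_mod_cast min_le_left _ _) hh)
  have h2 : (4 : ℝ) ≤ nm (mir r f) * h := hc.trans (mul_le_mul_of_nonneg_right
    (by exact_mod_cast min_le_right _ _) hh)
  have e1 : c1f 0 h f = 0 := by
    rcases max_choice f.1.natAbs f.2.natAbs with h3 | h3
    · have e : nm f = f.1.natAbs := h3
      rw [e, Nat.cast_natAbs, Int.cast_abs] at h1
      rw [c1f, gc_zero hh (by rwa [sub_zero])]; ring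
    · have e : nm f = f.2.natAbs := h3
      rw [e, Nat.cast_natAbs, Int.cast_abs] at h1
      rw [c1f, gc_zero (x := (f.2 : ℝ)) hh (by rwa [sub_zero])]; ring
  have e2 : c1f ((r : ℝ) - 1) h f = 0 := by
    rcases max_choice (mir r f).1.natAbs (mir r f).2.natAbs with h3 | h3
    · have e : nm (mir r f) = (mir r f).1.natAbs := h3
      rw [e, Nat.cast_natAbs, Int.cast_abs] at h2
      have e1 : |((mir r f).1 : ℝ)| = |(f.1 : ℝ) - ((r : ℝ) - 1)| := by
        simp only [mir]; push_cast; rw [abs_sub_comm]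
      rw [e1] at h2
      rw [c1f, gc_zero hh h2]; ring
    · have e : nm (mir r f) = (mir r f).2.natAbs := h3
      rw [e, Nat.cast_natAbs, Int.cast_abs] at h2
      rw [c1f, gc_zero (x := (f.2 : ℝ)) hh (by rw [sub_zero]; exact h2)]; ring
  rw [chf, e1, e2]; ring

/-! ### sums of squares of gradients supported at one scale -/

theorem grad_count {r N : ℕ} {a : Z2 → ℝ} {β : ℝ} (h1 : ∀ e : Bnd, |dr a e| ≤ β)
    (h2 : ∀ e : Bnd, dr a e ≠ 0 → ns r (lf e) ≤ N) (S : Finset Bnd) :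
    ∑ e ∈ S, dr a e ^ 2 ≤ 4 * (2 * N + 1) ^ 2 * β ^ 2 := by
  classical
  have hcard : ∀ o : Bool, ((S.filter fun e => dr a e ≠ 0 ∧ e.2 = o).card : ℝ) ≤
      2 * (2 * N + 1) ^ 2 := by
    intro o
    have h3 : (S.filter fun e => dr a e ≠ 0 ∧ e.2 = o).card =
        ((S.filter fun e => dr a e ≠ 0 ∧ e.2 = o).image lf).card := by
      rw [Finset.card_image_of_injOn]
      intro x hx y hy hxy
      simp only [Finset.coe_filter, Set.mem_setOf_eq] at hx hy
      exact lf_inj' x y (hx.2.2.trans hy.2.2.symm) hxy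
    rw [h3]
    refine card_ns_le _ r N fun f hf => ?_
    obtain ⟨e, he, rfl⟩ := Finset.mem_image.1 hf
    exact h2 e (Finset.mem_filter.1 he).2.1
  have h4 : ∀ e ∈ S, dr a e ^ 2 ≤ (if dr a e ≠ 0 ∧ e.2 = true then β ^ 2 else 0) +
      (if dr a e ≠ 0 ∧ e.2 = false then β ^ 2 else 0) := by
    intro e _
    have h5 : dr a e ^ 2 ≤ β ^ 2 := by
      rw [← sq_abs]; exact pow_le_pow_left₀ (abs_nonneg _) (h1 e) 2
    by_cases h6 : dr a e = 0
    · simp [h6]
    · cases he : e.2 <;> simp [h6, h5]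
  calc ∑ e ∈ S, dr a e ^ 2 ≤ ∑ e ∈ S, ((if dr a e ≠ 0 ∧ e.2 = true then β ^ 2 else 0) +
      (if dr a e ≠ 0 ∧ e.2 = false then β ^ 2 else 0)) := Finset.sum_le_sum h4
    _ = (S.filter fun e => dr a e ≠ 0 ∧ e.2 = true).card * β ^ 2 +
        (S.filter fun e => dr a e ≠ 0 ∧ e.2 = false).card * β ^ 2 := by
        rw [Finset.sum_add_distrib, ← Finset.sum_filter, ← Finset.sum_filter, Finset.sum_const,
          Finset.sum_const, nsmul_eq_mul, nsmul_eq_mul]
    _ ≤ 2 * (2 * N + 1) ^ 2 * β ^ 2 + 2 * (2 * N + 1) ^ 2 * β ^ 2 :=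
        add_le_add (mul_le_mul_of_nonneg_right (hcard true) (by positivity))
          (mul_le_mul_of_nonneg_right (hcard false) (by positivity))
    _ = 4 * (2 * N + 1) ^ 2 * β ^ 2 := by ring

/-- the Lipschitz cut-off for the far energy -/
noncomputable def zf (r : ℕ) (h : ℝ) (f : Z2) : ℝ := max 0 (min 1 (ns r f * h - 2))

theorem zf_one {r : ℕ} {h : ℝ} {f : Z2} (hf : 3 ≤ ns r f * h) : zf r h f = 1 := by
  rw [zf, min_eq_left (by linarith), max_eq_right zero_le_one]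

theorem zf_zero {r : ℕ} {h : ℝ} {f : Z2} (hf : ns r f * h ≤ 2) : zf r h f = 0 := by
  rw [zf, max_eq_left]
  exact (min_le_right _ _).trans (by linarith)

theorem zf_lip {r : ℕ} {h : ℝ} (hh : 0 ≤ h) (e : Bnd) : |dr (zf r h) e| ≤ h := by
  have key : ∀ a b : ℝ, |max 0 (min 1 a) - max 0 (min 1 b)| ≤ |a - b| := by
    intro a b
    calc |max 0 (min 1 a) - max 0 (min 1 b)| ≤ |min 1 a - min 1 b| := by
          have := abs_max_sub_max_le_abs (min 1 a) (min 1 b) 0
          rwa [max_comm 0, max_comm 0]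
      _ ≤ |a - b| := by
          have := abs_min_sub_min_le_max 1 a 1 b
          simpa using this
  rw [dr]
  refine (key _ _).trans ?_
  obtain ⟨h1, h2⟩ := ns_bond r e
  have h3 : (ns r (lf e) : ℝ) ≤ ns r (rt e) + 1 := by exact_mod_cast h1
  have h4 : (ns r (rt e) : ℝ) ≤ ns r (lf e) + 1 := by exact_mod_cast h2
  have e1 : (ns r (lf e) : ℝ) * h - 2 - (ns r (rt e) * h - 2) =
    ((ns r (lf e) : ℝ) - ns r (rt e)) * h := by ring
  rw [e1, abs_mul, abs_of_nonneg hh]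
  calc _ ≤ 1 * h := mul_le_mul_of_nonneg_right (by rw [abs_le]; constructor <;> linarith) hh
    _ = h := one_mul h

/-- energy of `v` far from the tips -/
theorem far_energy {r : ℕ} {R : Finset Z2} {v t : Z2 → ℝ} {K X : ℝ}
    (hv : ∀ f ∈ R, lap v f = 0) (ht : ∀ f, f ∉ R → v f = t f) (hK : ∀ f, |v f| ≤ K)
    (hX : 1 ≤ X) (hfar : ∀ f, 2 * X ≤ ns r f → t f = 0) (S : Finset Bnd)
    (hS : ∀ e ∈ S, 3 * X ≤ ns r (lf e)) : ∑ e ∈ S, dr v e ^ 2 ≤ 7744 * K ^ 2 := by
  classical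
  have hX0 : 0 < X := by linarith
  set h : ℝ := 1 / X with hh
  have hh0 : 0 < h := by positivity
  have hhX : h * X = 1 := by rw [hh]; field_simp
  have hz : ∀ f, f ∉ R → zf r h f ^ 2 * (v f - (fun _ => (0 : ℝ)) f) = 0 := by
    intro f hf
    by_cases h2 : 2 * X ≤ ns r f
    · rw [ht f hf, hfar f h2]; simp
    · push Not at h2
      have : zf r h f = 0 := zf_zero (by
        have := mul_le_mul_of_nonneg_right h2.le hh0.le
        nlinarith)
      rw [this]; ring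
  have hc := cacc (S := S ∪ bd R) Finset.subset_union_right hv hz
  have h0 : ∑ e ∈ S ∪ bd R, (zf r h (lf e) ^ 2 + zf r h (rt e) ^ 2) / 2 *
      dr (fun _ => (0 : ℝ)) e ^ 2 = 0 := Finset.sum_eq_zero fun e _ => by simp [dr]
  rw [h0, mul_zero, zero_add] at hc
  -- the number of bonds
  set N : ℕ := ⌊5 * X⌋₊ with hN
  have hN1 : (N : ℝ) ≤ 5 * X := Nat.floor_le (by positivity)
  have hz2 : ∑ e ∈ S ∪ bd R, dr (zf r h) e ^ 2 ≤ 4 * (2 * N + 1) ^ 2 * h ^ 2 := by
    refine grad_count (r := r) (zf_lip hh0.le) (fun e he => ?_) _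
    by_contra hcon
    apply he
    push Not at hcon
    have h5 : 5 * X < ns r (lf e) := (Nat.floor_lt (by positivity)).1 hcon
    have h6 : (ns r (lf e) : ℝ) ≤ ns r (rt e) + 1 := by exact_mod_cast (ns_bond r e).1
    rw [dr, zf_one, zf_one, sub_self]
    · have : 3 * X ≤ ns r (rt e) := by linarith
      have := mul_le_mul_of_nonneg_right this hh0.le
      nlinarith
    · have : 3 * X ≤ ns r (lf e) := by linarith
      have := mul_le_mul_of_nonneg_right this hh0.le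
      nlinarith
  have hz3 : 4 * (2 * (N : ℝ) + 1) ^ 2 * h ^ 2 ≤ 484 := by
    have h1 : 2 * (N : ℝ) + 1 ≤ 11 * X := by linarith
    have h2 : (2 * (N : ℝ) + 1) * h ≤ 11 := by
      have := mul_le_mul_of_nonneg_right h1 hh0.le
      nlinarith
    have h3 : ((2 * (N : ℝ) + 1) * h) ^ 2 ≤ 11 ^ 2 := pow_le_pow_left₀ (by positivity) h2 2
    nlinarith
  have h5 : ∑ e ∈ S ∪ bd R, (v (lf e) - (fun _ => (0 : ℝ)) (lf e) +
      (v (rt e) - (fun _ => (0 : ℝ)) (rt e))) ^ 2 * dr (zf r h) e ^ 2 ≤ 4 * K ^ 2 * 484 := by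
    calc _ ≤ ∑ e ∈ S ∪ bd R, 4 * K ^ 2 * dr (zf r h) e ^ 2 := by
          refine Finset.sum_le_sum fun e _ => mul_le_mul_of_nonneg_right ?_ (sq_nonneg _)
          simp only [sub_zero]
          have h1 := abs_le.1 (hK (lf e))
          have h2 := abs_le.1 (hK (rt e))
          nlinarith [h1.1, h1.2, h2.1, h2.2]
      _ = 4 * K ^ 2 * ∑ e ∈ S ∪ bd R, dr (zf r h) e ^ 2 := by rw [Finset.mul_sum]
      _ ≤ 4 * K ^ 2 * 484 := mul_le_mul_of_nonneg_left (hz2.trans hz3) (by positivity)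
  have h6 : ∑ e ∈ S, dr v e ^ 2 ≤
      2 * ∑ e ∈ S ∪ bd R, (zf r h (lf e) ^ 2 + zf r h (rt e) ^ 2) / 2 * dr v e ^ 2 := by
    rw [Finset.mul_sum]
    refine le_trans ?_ (Finset.sum_le_sum_of_subset_of_nonneg Finset.subset_union_left
      (fun e _ _ => by positivity))
    refine Finset.sum_le_sum fun e he => ?_
    rw [zf_one (f := lf e) (by
      have := mul_le_mul_of_nonneg_right (hS e he) hh0.le
      nlinarith)]
    nlinarith [mul_nonneg (sq_nonneg (zf r h (rt e))) (sq_nonneg (dr v e)), sq_nonneg (dr v e)]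
  linarith

end Vale.Agent.P159.T1.S.H376
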