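import Vale.Agent.P159.T1.S.H376.Phi

/-! # P159, T1, stage 2: row StmtPhi, the pointwise bounds -/

open Finset
open Vale.Agent.P159.T1.D
open Vale.Agent.P159.T1.H775

namespace Vale.Agent.P159.T1.S.H376

/-- a large box about `f` is in `R` if `|u| > ω` at a face next to `f` -/
theorem room {δ ω : ℝ} {n0 r : ℕ} {R : Finset Z2} {t v : Z2 → ℝ} (hδ : 0 < δ)
    (hcl : ∀ f g : Z2, g ∉ R → |((g.1 - f.1 : ℤ) : ℝ)| ≤ δ * max (n0 : ℝ) (ns r f) →
      |((g.2 - f.2 : ℤ) : ℝ)| ≤ δ * max (n0 : ℝ) (ns r f) → |t f - v f| ≤ ω)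
    (hn : 16 ≤ δ * n0) (hn4 : (4 : ℝ) ≤ n0) {f p : Z2} (hp : InBox f 2 p)
    (hup : ω < |t p - v p|) : ∃ m : ℕ, 1 ≤ m ∧ (∀ g, InBox f (2 * m + 1) g → g ∈ R) ∧
      (1 + ns r f : ℝ) ≤ 32 / δ * m := by
  set X : ℝ := max (n0 : ℝ) (ns r f) with hX
  have hX1 : (n0 : ℝ) ≤ X := le_max_left _ _
  have hX2 : (ns r f : ℝ) ≤ X := le_max_right _ _
  have hX0 : 0 < X := by linarith
  have hδX : 16 ≤ δ * X := hn.trans (mul_le_mul_of_nonneg_left hX1 hδ.le)
  set m : ℕ := ⌊δ * X / 8⌋₊ with hm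
  have hm1 : (m : ℝ) ≤ δ * X / 8 := Nat.floor_le (by positivity)
  have hm2 : δ * X / 8 < m + 1 := Nat.lt_floor_add_one _
  have hm3 : (1 : ℝ) < m := by linarith
  have hm4 : 1 ≤ m := by exact_mod_cast hm3.le
  refine ⟨m, hm4, ?_, ?_⟩
  · intro g hg
    by_contra hgR
    have hnp : (ns r f : ℝ) ≤ ns r p + 2 := by exact_mod_cast ns_lip r hp
    have hmax : X / 2 ≤ max (n0 : ℝ) (ns r p) := by
      rcases le_total (ns r f : ℝ) n0 with h | h
      · have : X = n0 := max_eq_left h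
        refine le_trans ?_ (le_max_left _ _)
        linarith
      · have : X = ns r f := max_eq_right h
        refine le_trans ?_ (le_max_right _ _)
        linarith
    have h1 : δ * (X / 2) ≤ δ * max (n0 : ℝ) (ns r p) := mul_le_mul_of_nonneg_left hmax hδ.le
    have h2 : (2 * m + 3 : ℝ) ≤ δ * max (n0 : ℝ) (ns r p) := by linarith
    obtain ⟨a1, a2⟩ := hg
    obtain ⟨b1, b2⟩ := hp
    have c1 : |g.1 - p.1| ≤ ((2 * m + 1 : ℕ) : ℤ) + 2 := by
      have e : g.1 - p.1 = (g.1 - f.1) - (p.1 - f.1) := by ring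
      rw [e]
      exact (abs_sub _ _).trans (add_le_add a1 b1)
    have c2 : |g.2 - p.2| ≤ ((2 * m + 1 : ℕ) : ℤ) + 2 := by
      have e : g.2 - p.2 = (g.2 - f.2) - (p.2 - f.2) := by ring
      rw [e]
      exact (abs_sub _ _).trans (add_le_add a2 b2)
    have c3 : |((g.1 - p.1 : ℤ) : ℝ)| ≤ 2 * m + 3 := by
      rw [← Int.cast_abs]
      have : ((|g.1 - p.1| : ℤ) : ℝ) ≤ ((((2 * m + 1 : ℕ) : ℤ) + 2 : ℤ) : ℝ) := by
        exact_mod_cast c1
      refine this.trans (le_of_eq ?_)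
      push_cast; ring
    have c4 : |((g.2 - p.2 : ℤ) : ℝ)| ≤ 2 * m + 3 := by
      rw [← Int.cast_abs]
      have : ((|g.2 - p.2| : ℤ) : ℝ) ≤ ((((2 * m + 1 : ℕ) : ℤ) + 2 : ℤ) : ℝ) := by
        exact_mod_cast c2
      refine this.trans (le_of_eq ?_)
      push_cast; ring
    exact absurd (hcl p g hgR (c3.trans h2) (c4.trans h2)) (not_le.2 hup)
  · have h3 : δ * X / 16 ≤ m := by linarith
    have h4 : 1 + (ns r f : ℝ) ≤ 2 * X := by linarith
    have h5 : 2 * X = 32 / δ * (δ * X / 16) := by field_simp; ring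
    rw [h5] at h4
    exact h4.trans (mul_le_mul_of_nonneg_left h3 (by positivity))

/-- scale invariant version of `χ` -/
theorem chf_scale {r : ℕ} {X : ℝ} (hX : 1 ≤ X) (f : Z2) (d : Bool) :
    (1 + ns r f : ℝ) * |chf ((r : ℝ) - 1) (1 / X) (stp d f) - chf ((r : ℝ) - 1) (1 / X) f| ≤ 96 := by
  have hX0 : 0 < X := by linarith
  have hh : (0 : ℝ) ≤ 1 / X := by positivity
  have hb := (bd_chf (c := (r : ℝ) - 1) hh).fst f d
  by_cases h0 : chf ((r : ℝ) - 1) (1 / X) (stp d f) = 0 ∧ chf ((r : ℝ) - 1) (1 / X) f = 0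
  · rw [h0.1, h0.2]; norm_num
  · have hns : (ns r f : ℝ) ≤ 4 * X + 1 := by
      rw [not_and_or] at h0
      rcases h0 with h | h
      · have h1 := chf_supp hh h
        have h2 : (ns r f : ℝ) ≤ ns r (stp d f) + 1 := by exact_mod_cast (ns_stp r d f).2
        have h3 : (ns r (stp d f) : ℝ) < 4 * X := by
          rwa [mul_one_div, div_lt_iff₀ hX0] at h1
        linarith
      · have h1 := chf_supp hh h
        have h3 : (ns r f : ℝ) < 4 * X := by
          rwa [mul_one_div, div_lt_iff₀ hX0] at h1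
        linarith
    calc _ ≤ (6 * X) * (16 * (1 / X)) :=
          mul_le_mul (by linarith) hb (abs_nonneg _) (by positivity)
      _ = 96 := by field_simp; norm_num

theorem chf_scale2 {r : ℕ} {X : ℝ} (hX : 1 ≤ X) (f : Z2) (d d' : Bool) :
    (1 + ns r f : ℝ) ^ 2 * |chf ((r : ℝ) - 1) (1 / X) (stp d (stp d' f)) -
      chf ((r : ℝ) - 1) (1 / X) (stp d' f) -
      (chf ((r : ℝ) - 1) (1 / X) (stp d f) - chf ((r : ℝ) - 1) (1 / X) f)| ≤ 12544 := by
  have hX0 : 0 < X := by linarith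
  have hh : (0 : ℝ) ≤ 1 / X := by positivity
  have hb := (bd_chf (c := (r : ℝ) - 1) hh).snd f d d'
  have hs : ∀ g, chf ((r : ℝ) - 1) (1 / X) g ≠ 0 → (ns r g : ℝ) < 4 * X := by
    intro g hg
    have h1 := chf_supp hh hg
    rwa [mul_one_div, div_lt_iff₀ hX0] at h1
  by_cases h0 : (ns r f : ℝ) ≤ 4 * X + 2
  · calc _ ≤ (7 * X) ^ 2 * (256 * (1 / X) ^ 2) :=
          mul_le_mul (pow_le_pow_left₀ (by positivity) (by linarith) 2) hb (abs_nonneg _)
            (by positivity)
      _ = 12544 := by field_simp; norm_num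
  · push Not at h0
    have hz : ∀ g, InBox f 2 g → chf ((r : ℝ) - 1) (1 / X) g = 0 := by
      intro g hg
      by_contra hc
      have h1 := hs g hc
      have h2 : (ns r f : ℝ) ≤ ns r g + 2 := by exact_mod_cast ns_lip r hg
      linarith
    have k1 : InBox f 2 (stp d (stp d' f)) := (inBox_stp d' f).trans (inBox_stp d _)
    have k2 : InBox f 2 (stp d' f) := (inBox_stp d' f).mono (by norm_num)
    have k3 : InBox f 2 (stp d f) := (inBox_stp d f).mono (by norm_num)
    rw [hz _ k1, hz _ k2, hz _ k3, hz _ (inBox_self f 2)]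
    norm_num

/-- the pointwise bounds of `φ` -/
theorem phi_bounds {K δ ω c1 : ℝ} {n0 r : ℕ} {R : Finset Z2} {t v : Z2 → ℝ} (hK : 0 < K)
    (hδ : 0 < δ) (hω : 0 < ω) (hT : Tent K c1 n0 r t) (hH : Harm R t v)
    (hR : ∀ f ∈ R, f ∉ slit r)
    (hcl : ∀ f g : Z2, g ∉ R → |((g.1 - f.1 : ℤ) : ℝ)| ≤ δ * max (n0 : ℝ) (ns r f) →
      |((g.2 - f.2 : ℤ) : ℝ)| ≤ δ * max (n0 : ℝ) (ns r f) → |t f - v f| ≤ ω)
    (hn : 16 ≤ δ * n0) (hn4 : (4 : ℝ) ≤ n0) {X : ℝ} (hX : 1 ≤ X) :
    (∀ f, |chf ((r : ℝ) - 1) (1 / X) f * G ω (t f - v f)| ≤ 2 * K) ∧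
    (∀ f d, (1 + ns r f : ℝ) * |chf ((r : ℝ) - 1) (1 / X) (stp d f) *
        G ω (t (stp d f) - v (stp d f)) - chf ((r : ℝ) - 1) (1 / X) f * G ω (t f - v f)| ≤
          96 * (2 * K) + (K + 64 * K / δ)) ∧
    (∀ f d d', (1 + ns r f : ℝ) ^ 2 * |chf ((r : ℝ) - 1) (1 / X) (stp d (stp d' f)) *
        G ω (t (stp d (stp d' f)) - v (stp d (stp d' f))) - chf ((r : ℝ) - 1) (1 / X) (stp d' f) *
        G ω (t (stp d' f) - v (stp d' f)) - (chf ((r : ℝ) - 1) (1 / X) (stp d f) *
        G ω (t (stp d f) - v (stp d f)) - chf ((r : ℝ) - 1) (1 / X) f * G ω (t f - v f))| ≤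
      12544 * (2 * K) + (K + 4 * K * (32 / δ) ^ 2 + 6 * (2 * K + 64 * K / δ) ^ 2 / ω) +
        2 * (96 * (2 * K + 64 * K / δ))) := by
  obtain ⟨ht, hv⟩ := hH
  have hM : ∀ f, |t f| ≤ K := fun f => by
    rw [abs_of_nonneg (hT.nonneg f)]; exact hT.le f
  have hvM : ∀ f, |v f| ≤ K := abs_le_of_harm hv (fun f hf => by rw [ht f hf]; exact hM f)
  have hG : ∀ f, |G ω (t f - v f)| ≤ 2 * K := by
    intro f
    have h1 := G_lip hω 0 (t f - v f)
    rw [G_low hω (x := 0) (by simpa using hω.le), sub_zero, sub_zero] at h1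
    refine h1.trans ((abs_sub _ _).trans ?_)
    have := hM f; have := hvM f; linarith
  have hh : (0 : ℝ) ≤ 1 / X := by
    have : 0 < X := by linarith
    positivity
  have hchi := fun f => (bd_chf (c := (r : ℝ) - 1) hh).mem f
  -- gradient of the tent
  have hgr : ∀ f d g, InBox f 1 g → |t (stp d g) - t g| ≤ 2 * K / (1 + ns r f) := by
    intro f d g hg
    have h1 := hT.grad g d
    have h2 : (ns r f : ℝ) ≤ ns r g + 1 := by exact_mod_cast ns_lip r hg
    have h3 : (0 : ℝ) ≤ ns r g := Nat.cast_nonneg _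
    rw [le_div_iff₀ (by positivity)]
    calc |t (stp d g) - t g| * (1 + (ns r f : ℝ)) ≤ |t (stp d g) - t g| * (2 * (1 + ns r g)) :=
          mul_le_mul_of_nonneg_left (by linarith) (abs_nonneg _)
      _ = 2 * ((1 + ns r g : ℝ) * |t (stp d g) - t g|) := by ring
      _ ≤ 2 * K := by linarith
  -- first differences of `G u` where a large box is in `R`
  have hfirst : ∀ f g : Z2, ∀ m : ℕ, 1 ≤ m → (∀ p, InBox f (2 * m + 1) p → p ∈ R) →
      (1 + ns r f : ℝ) ≤ 32 / δ * m → InBox f 1 g → ∀ d,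
      (1 + ns r f : ℝ) * |G ω (t (stp d g) - v (stp d g)) - G ω (t g - v g)| ≤
        2 * K + 64 * K / δ := by
    intro f g m hm hb hns hg d
    have hm0 : (0 : ℝ) < m := by exact_mod_cast hm
    have h1 := phi_first hv ht hM hω hm (f := g)
      (fun p hp => hb p ((hg.trans hp).mono (by omega))) d
    have h2 := hgr f d g hg
    have h0 : (0 : ℝ) < 1 + ns r f := by positivity
    calc _ ≤ (1 + ns r f : ℝ) * (2 * K / (1 + ns r f) + 2 * K / m) :=
          mul_le_mul_of_nonneg_left (h1.trans (by linarith)) h0.le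
      _ = 2 * K + (1 + ns r f : ℝ) * (2 * K / m) := by field_simp
      _ ≤ 2 * K + 32 / δ * m * (2 * K / m) := by
          have := mul_le_mul_of_nonneg_right hns (by positivity : (0 : ℝ) ≤ 2 * K / m)
          linarith
      _ = 2 * K + 64 * K / δ := by field_simp; ring
  have h64 : 0 ≤ 64 * K / δ := by positivity
  refine ⟨?_, ?_, ?_⟩
  · intro f
    rw [abs_mul, abs_of_nonneg (hchi f).1]
    calc _ ≤ 1 * |G ω (t f - v f)| := mul_le_mul_of_nonneg_right (hchi f).2 (abs_nonneg _)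
      _ ≤ 2 * K := by rw [one_mul]; exact hG f
  · intro f d
    have hn0 : (0 : ℝ) ≤ 1 + ns r f := by positivity
    by_cases hz : |t f - v f| ≤ ω ∧ |t (stp d f) - v (stp d f)| ≤ ω
    · rw [G_low hω hz.1, G_low hω hz.2, mul_zero, mul_zero, sub_zero, abs_zero, mul_zero]
      positivity
    · obtain ⟨p, hp, hup⟩ : ∃ p, InBox f 2 p ∧ ω < |t p - v p| := by
        rw [not_and_or, not_le, not_le] at hz
        rcases hz with h | h
        · exact ⟨f, inBox_self f 2, h⟩
        · exact ⟨_, (inBox_stp d f).mono (by norm_num), h⟩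
      obtain ⟨m, hm, hb, hns⟩ := room hδ hcl hn hn4 hp hup
      have hm0 : (0 : ℝ) < m := by exact_mod_cast hm
      have h1 := phi_first hv ht hM hω hm (f := f)
        (fun p hp => hb p (hp.mono (by omega))) d
      have h2 := hT.grad f d
      have h3 : (1 + ns r f : ℝ) * |G ω (t (stp d f) - v (stp d f)) - G ω (t f - v f)| ≤
          K + 64 * K / δ := by
        calc _ ≤ (1 + ns r f : ℝ) * (|t (stp d f) - t f| + 2 * K / m) :=
              mul_le_mul_of_nonneg_left h1 hn0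
          _ = (1 + ns r f : ℝ) * |t (stp d f) - t f| + (1 + ns r f : ℝ) * (2 * K / m) := by ring
          _ ≤ K + 32 / δ * m * (2 * K / m) :=
              add_le_add h2 (mul_le_mul_of_nonneg_right hns (by positivity))
          _ = K + 64 * K / δ := by field_simp; ring
      have e : chf ((r : ℝ) - 1) (1 / X) (stp d f) * G ω (t (stp d f) - v (stp d f)) -
          chf ((r : ℝ) - 1) (1 / X) f * G ω (t f - v f) =
          (chf ((r : ℝ) - 1) (1 / X) (stp d f) - chf ((r : ℝ) - 1) (1 / X) f) *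
            G ω (t (stp d f) - v (stp d f)) + chf ((r : ℝ) - 1) (1 / X) f *
            (G ω (t (stp d f) - v (stp d f)) - G ω (t f - v f)) := by ring
      rw [e]
      refine (mul_le_mul_of_nonneg_left (abs_add_le _ _) hn0).trans ?_
      rw [mul_add]
      refine add_le_add ?_ ?_
      · rw [abs_mul, ← mul_assoc]
        exact mul_le_mul (chf_scale hX f d) (hG _) (abs_nonneg _) (by norm_num)
      · rw [abs_mul, abs_of_nonneg (hchi f).1]
        calc _ ≤ (1 + ns r f : ℝ) *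
              (1 * |G ω (t (stp d f) - v (stp d f)) - G ω (t f - v f)|) :=
              mul_le_mul_of_nonneg_left
                (mul_le_mul_of_nonneg_right (hchi f).2 (abs_nonneg _)) hn0
          _ ≤ K + 64 * K / δ := by rw [one_mul]; exact h3
  · intro f d d'
    have hn0 : (0 : ℝ) < 1 + ns r f := by positivity
    have k1 : InBox f 2 (stp d (stp d' f)) := (inBox_stp d' f).trans (inBox_stp d _)
    have k2 : InBox f 2 (stp d' f) := (inBox_stp d' f).mono (by norm_num)
    have k3 : InBox f 2 (stp d f) := (inBox_stp d f).mono (by norm_num)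
    by_cases hz : ∀ p, InBox f 2 p → |t p - v p| ≤ ω
    · rw [G_low hω (hz _ k1), G_low hω (hz _ k2), G_low hω (hz _ k3),
        G_low hω (hz _ (inBox_self f 2))]
      simp only [mul_zero, sub_zero, abs_zero]
      positivity
    · push Not at hz
      obtain ⟨p, hp, hup⟩ := hz
      obtain ⟨m, hm, hb, hns⟩ := room hδ hcl hn hn4 hp hup
      have hm0 : (0 : ℝ) < m := by exact_mod_cast hm
      have hR2 : ∀ g, InBox f 2 g → g ∉ slit r := fun g hg => hR g (hb g (hg.mono (by omega)))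
      have hsec := phi_second hv ht hM hω hm hb
        (fun d g hg => hgr f d g hg) d d'
      have e0 : ∀ x y z w : ℝ, x - y - z + w = x - y - (z - w) := fun x y z w => by ring
      rw [e0] at hsec
      have hT2 := hT.second f d d' (hR2 _ (inBox_self f 2)) (hR2 _ k3) (hR2 _ k2) (hR2 _ k1)
      have h3 : (1 + ns r f : ℝ) ^ 2 * |G ω (t (stp d (stp d' f)) - v (stp d (stp d' f))) -
          G ω (t (stp d' f) - v (stp d' f)) - (G ω (t (stp d f) - v (stp d f)) -
          G ω (t f - v f))| ≤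
          K + 4 * K * (32 / δ) ^ 2 + 6 * (2 * K + 64 * K / δ) ^ 2 / ω := by
        have hq : (1 + ns r f : ℝ) / m ≤ 32 / δ := by
          rw [div_le_iff₀ hm0]; exact hns
        have hq0 : 0 ≤ (1 + ns r f : ℝ) / m := by positivity
        have hq2 : ((1 + ns r f : ℝ) / m) ^ 2 ≤ (32 / δ) ^ 2 := pow_le_pow_left₀ hq0 hq 2
        have s1 : (1 + ns r f : ℝ) ^ 2 * (4 * K / m ^ 2) ≤ 4 * K * (32 / δ) ^ 2 := by
          have e : (1 + ns r f : ℝ) ^ 2 * (4 * K / m ^ 2) =
            4 * K * ((1 + ns r f : ℝ) / m) ^ 2 := by field_simp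
          rw [e]
          exact mul_le_mul_of_nonneg_left hq2 (by positivity)
        have s2 : (1 + ns r f : ℝ) ^ 2 * (6 * (2 * K / (1 + ns r f) + 2 * K / m) ^ 2 / ω) ≤
            6 * (2 * K + 64 * K / δ) ^ 2 / ω := by
          have e : (1 + ns r f : ℝ) ^ 2 * (6 * (2 * K / (1 + ns r f) + 2 * K / m) ^ 2 / ω) =
            6 * (2 * K + 2 * K * ((1 + ns r f : ℝ) / m)) ^ 2 / ω := by field_simp
          rw [e]
          refine div_le_div_of_nonneg_right ?_ hω.le
          refine mul_le_mul_of_nonneg_left (pow_le_pow_left₀ (by positivity) ?_ 2) (by norm_num)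
          have := mul_le_mul_of_nonneg_left hq (by positivity : (0 : ℝ) ≤ 2 * K)
          have e2 : 2 * K * (32 / δ) = 64 * K / δ := by ring
          linarith
        calc _ ≤ (1 + ns r f : ℝ) ^ 2 * (|t (stp d (stp d' f)) - t (stp d' f) -
              (t (stp d f) - t f)| + 4 * K / m ^ 2 +
              6 * (2 * K / (1 + ns r f) + 2 * K / m) ^ 2 / ω) :=
              mul_le_mul_of_nonneg_left hsec (by positivity)
          _ = (1 + ns r f : ℝ) ^ 2 * |t (stp d (stp d' f)) - t (stp d' f) -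
              (t (stp d f) - t f)| + (1 + ns r f : ℝ) ^ 2 * (4 * K / m ^ 2) +
              (1 + ns r f : ℝ) ^ 2 * (6 * (2 * K / (1 + ns r f) + 2 * K / m) ^ 2 / ω) := by ring
          _ ≤ _ := add_le_add (add_le_add hT2 s1) s2
      have hf1 := hfirst f (stp d' f) m hm hb hns (inBox_stp d' f) d
      have hf2 := hfirst f (stp d f) m hm hb hns (inBox_stp d f) d'
      rw [stp_comm d' d f] at hf2
      rw [prod_second]
      set a00 := chf ((r : ℝ) - 1) (1 / X) f with ha00
      set a10 := chf ((r : ℝ) - 1) (1 / X) (stp d f) with ha10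
      set a01 := chf ((r : ℝ) - 1) (1 / X) (stp d' f) with ha01
      set a11 := chf ((r : ℝ) - 1) (1 / X) (stp d (stp d' f)) with ha11
      set b00 := G ω (t f - v f) with hb00
      set b10 := G ω (t (stp d f) - v (stp d f)) with hb10
      set b01 := G ω (t (stp d' f) - v (stp d' f)) with hb01
      set b11 := G ω (t (stp d (stp d' f)) - v (stp d (stp d' f))) with hb11
      have c1 : (1 + ns r f : ℝ) ^ 2 * |a11 - a01 - (a10 - a00)| ≤ 12544 := chf_scale2 hX f d d'
      have c2 : (1 + ns r f : ℝ) * |a01 - a00| ≤ 96 := chf_scale hX f d'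
      have c3 : (1 + ns r f : ℝ) * |a10 - a00| ≤ 96 := chf_scale hX f d
      have t1 : (1 + ns r f : ℝ) ^ 2 * |(a11 - a01 - (a10 - a00)) * b11| ≤ 12544 * (2 * K) := by
        rw [abs_mul, ← mul_assoc]
        exact mul_le_mul c1 (hG _) (abs_nonneg _) (by norm_num)
      have t2 : (1 + ns r f : ℝ) ^ 2 * |a00 * (b11 - b01 - (b10 - b00))| ≤
          K + 4 * K * (32 / δ) ^ 2 + 6 * (2 * K + 64 * K / δ) ^ 2 / ω := by
        refine le_trans ?_ h3
        rw [abs_mul, abs_of_nonneg (hchi f).1]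
        refine mul_le_mul_of_nonneg_left ?_ (by positivity)
        exact mul_le_of_le_one_left (abs_nonneg _) (hchi f).2
      have t3 : (1 + ns r f : ℝ) ^ 2 * |(a01 - a00) * (b11 - b01)| ≤
          96 * (2 * K + 64 * K / δ) := by
        have e : (1 + ns r f : ℝ) ^ 2 * |(a01 - a00) * (b11 - b01)| =
          ((1 + ns r f : ℝ) * |a01 - a00|) * ((1 + ns r f : ℝ) * |b11 - b01|) := by
          rw [abs_mul]; ring
        rw [e]
        exact mul_le_mul c2 hf1 (by positivity) (by norm_num)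
      have t4 : (1 + ns r f : ℝ) ^ 2 * |(a10 - a00) * (b11 - b10)| ≤
          96 * (2 * K + 64 * K / δ) := by
        have e : (1 + ns r f : ℝ) ^ 2 * |(a10 - a00) * (b11 - b10)| =
          ((1 + ns r f : ℝ) * |a10 - a00|) * ((1 + ns r f : ℝ) * |b11 - b10|) := by
          rw [abs_mul]; ring
        rw [e]
        exact mul_le_mul c3 hf2 (by positivity) (by norm_num)
      have habs : |(a11 - a01 - (a10 - a00)) * b11 + a00 * (b11 - b01 - (b10 - b00)) +
          (a01 - a00) * (b11 - b01) + (a10 - a00) * (b11 - b10)| ≤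
          |(a11 - a01 - (a10 - a00)) * b11| + |a00 * (b11 - b01 - (b10 - b00))| +
          |(a01 - a00) * (b11 - b01)| + |(a10 - a00) * (b11 - b10)| :=
        (abs_add_le _ _).trans (add_le_add ((abs_add_le _ _).trans
          (add_le_add (abs_add_le _ _) le_rfl)) le_rfl)
      refine (mul_le_mul_of_nonneg_left habs (by positivity)).trans ?_
      rw [mul_add, mul_add, mul_add]
      linarith

end Vale.Agent.P159.T1.S.H376
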