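import Vale.Agent.P159.T1.D.H469.Tri
import Vale.Agent.P159.T1.H910.DKit2
import Vale.Agent.P159.T1.H934.VrQ

/-! # P159, T1, stage 2: from the cut gradient `dr φ` to the field `B₀` (Minkowski) -/

open Finset
open Vale.Agent.P159
open Vale.Agent.P159.T1.D

namespace Vale.Agent.P159.T1.S.H376

/-- if `Y B₀` is close to `dr φ` in energy then the lower bound of the variance of `dr φ` gives the
lower bound of the variance of `B₀` -/
theorem vb_of {b Y : ℝ} (hb : 0 ≤ b) (hY : 0 < Y) (U : Finset Z2) {S : Finset Bnd}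
    (hS : bd U ⊆ S) {B F : Bnd → ℝ} {θ L1 L2 L3 : ℝ} (hθ : 0 < θ) (hθ1 : θ ≤ 1)
    (h1 : ∑ e ∈ S, (Y * B e - F e) ^ 2 ≤ L1) (h2 : Y * ∑ e ∈ S, F e ^ 2 - L2 ≤ Vr b U F)
    (h3 : ∑ e ∈ S, B e ^ 2 ≤ L3) (hL2 : 0 ≤ L2) :
    Y * ∑ e ∈ S, B e ^ 2 - (2 * θ * Y * L3 + (1 + 1 / θ) * (1 / Y + b / Y ^ 2) * L1 + L2 / Y ^ 2) ≤
      Vr b U B := by
  have hF : Vr b U F = Y ^ 2 * Vr b U (fun e => F e / Y) := by
    have := H469.Vr_smul b U Y (fun e => F e / Y)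
    rw [← this]
    congr 1
    funext e
    field_simp
  set A : ℝ := ∑ e ∈ S, B e ^ 2 with hA
  set D : ℝ := ∑ e ∈ S, (F e / Y) ^ 2 with hD
  set Q : ℝ := ∑ e ∈ S, (F e / Y - B e) ^ 2 with hQ
  have hQ0 : 0 ≤ Q := Finset.sum_nonneg fun e _ => sq_nonneg _
  have hA0 : 0 ≤ A := Finset.sum_nonneg fun e _ => sq_nonneg _
  have hQ1 : Q ≤ L1 / Y ^ 2 := by
    rw [le_div_iff₀ (by positivity)]
    refine le_trans (le_of_eq ?_) h1
    rw [hQ, Finset.sum_mul]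
    refine Finset.sum_congr rfl fun e _ => ?_
    field_simp
    ring
  have hD1 : Y ^ 2 * D = ∑ e ∈ S, F e ^ 2 := by
    rw [hD, Finset.mul_sum]
    refine Finset.sum_congr rfl fun e _ => ?_
    field_simp
  have hAD : A ≤ (1 + θ) * D + (1 + 1 / θ) * Q := by
    rw [hA, hD, hQ, Finset.mul_sum, Finset.mul_sum, ← Finset.sum_add_distrib]
    refine Finset.sum_le_sum fun e _ => ?_
    have e1 : (1 + θ) * (F e / Y) ^ 2 + (1 + 1 / θ) * (F e / Y - B e) ^ 2 - B e ^ 2 =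
        (θ * (F e / Y) + (F e / Y - B e)) ^ 2 / θ := by
      field_simp; ring
    have e2 : 0 ≤ (θ * (F e / Y) + (F e / Y - B e)) ^ 2 / θ := by positivity
    linarith
  have hV := H934.Vr_young hb U hθ B (fun e => F e / Y)
  have hV2 : Vr b U ((fun e => F e / Y) - B) ≤ b * Q := by
    refine (H910.Vr_le hb U _).trans (mul_le_mul_of_nonneg_left ?_ hb)
    exact Finset.sum_le_sum_of_subset_of_nonneg hS (fun e _ _ => sq_nonneg _)
  rw [hF, ← hD1] at h2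
  set V0 := Vr b U B with hV0
  set V1 := Vr b U (fun e => F e / Y) with hV1
  -- `Y D - L2 / Y² ≤ V1`
  have h4 : Y * D - L2 / Y ^ 2 ≤ V1 := by
    have h5 : (Y * D - L2 / Y ^ 2) * Y ^ 2 ≤ V1 * Y ^ 2 := by
      have : (Y * D - L2 / Y ^ 2) * Y ^ 2 = Y * (Y ^ 2 * D) - L2 := by field_simp
      rw [this]; linarith
    exact le_of_mul_le_mul_right h5 (by positivity)
  have hθ' : 0 < 1 + 1 / θ := by positivity
  have hbQ : b * Q ≤ b * (L1 / Y ^ 2) := mul_le_mul_of_nonneg_left hQ1 hb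
  have h6 : V1 ≤ (1 + θ) * V0 + (1 + 1 / θ) * (b * (L1 / Y ^ 2)) := by
    refine hV.trans ?_
    have := mul_le_mul_of_nonneg_left (hV2.trans hbQ) hθ'.le
    linarith
  have h7 : A ≤ (1 + θ) * D + (1 + 1 / θ) * (L1 / Y ^ 2) := by
    have := mul_le_mul_of_nonneg_left hQ1 hθ'.le
    linarith
  have hL1 : 0 ≤ L1 / Y ^ 2 := hQ0.trans hQ1
  -- combine
  have h8 : Y * A ≤ (1 + θ) * ((1 + θ) * V0 + (1 + 1 / θ) * (b * (L1 / Y ^ 2)) + L2 / Y ^ 2) +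
      Y * ((1 + 1 / θ) * (L1 / Y ^ 2)) := by
    have a1 : Y * D ≤ (1 + θ) * V0 + (1 + 1 / θ) * (b * (L1 / Y ^ 2)) + L2 / Y ^ 2 := by linarith
    have a2 := mul_le_mul_of_nonneg_left a1 (by linarith : (0 : ℝ) ≤ 1 + θ)
    have a3 := mul_le_mul_of_nonneg_left h7 hY.le
    have a4 : Y * ((1 + θ) * D + (1 + 1 / θ) * (L1 / Y ^ 2)) =
        (1 + θ) * (Y * D) + Y * ((1 + 1 / θ) * (L1 / Y ^ 2)) := by ring
    linarith
  -- divide by `(1 + θ)²`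
  set P : ℝ := (1 + 1 / θ) * (b * (L1 / Y ^ 2)) + L2 / Y ^ 2 with hP
  set W : ℝ := Y * ((1 + 1 / θ) * (L1 / Y ^ 2)) with hW
  have hP0 : 0 ≤ P := by positivity
  have hW0 : 0 ≤ W := by positivity
  have h9 : Y * A ≤ (1 + θ) ^ 2 * V0 + (1 + θ) * P + W := by
    refine h8.trans (le_of_eq ?_)
    rw [hP]; ring
  have h10 : (1 + θ) ^ 2 * (Y * A - (2 * θ * (Y * A) + P + W)) ≤ (1 + θ) ^ 2 * V0 := by
    have b1 : (1 + θ) ^ 2 * (1 - 2 * θ) ≤ 1 := by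
      have e : (1 + θ) ^ 2 * (1 - 2 * θ) = 1 - (3 * θ ^ 2 + 2 * θ ^ 3) := by ring
      have : 0 ≤ 3 * θ ^ 2 + 2 * θ ^ 3 := by positivity
      linarith
    have b2 : 0 ≤ Y * A := by positivity
    have b3 : (1 + θ) ^ 2 * (1 - 2 * θ) * (Y * A) ≤ 1 * (Y * A) :=
      mul_le_mul_of_nonneg_right b1 b2
    have b6 : (1 : ℝ) ≤ 1 + θ := by linarith
    have b4 : (1 + θ) * P ≤ (1 + θ) ^ 2 * P :=
      mul_le_mul_of_nonneg_right (le_self_pow₀ b6 two_ne_zero) hP0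
    have b5 : 1 * W ≤ (1 + θ) ^ 2 * W :=
      mul_le_mul_of_nonneg_right (one_le_pow₀ b6) hW0
    have e : (1 + θ) ^ 2 * (Y * A - (2 * θ * (Y * A) + P + W)) =
      (1 + θ) ^ 2 * (1 - 2 * θ) * (Y * A) - (1 + θ) ^ 2 * P - (1 + θ) ^ 2 * W := by ring
    rw [e]
    linarith
  have h11 : Y * A - (2 * θ * (Y * A) + P + W) ≤ V0 :=
    le_of_mul_le_mul_left h10 (by positivity)
  have h12 : 2 * θ * (Y * A) ≤ 2 * θ * Y * L3 := by
    have := mul_le_mul_of_nonneg_left h3 (by positivity : (0 : ℝ) ≤ 2 * θ * Y)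
    linarith
  have h13 : P + W = (1 + 1 / θ) * (1 / Y + b / Y ^ 2) * L1 + L2 / Y ^ 2 := by
    rw [hP, hW]; field_simp; ring
  linarith

end Vale.Agent.P159.T1.S.H376
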